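import Vale.Agent.H1.LT2.Defs

/-!
Row FC of P371: `V V*` and `V* V`.
-/

open MeasureTheory Matrix Set Polynomial
open scoped ENNReal ComplexOrder

namespace Vale.LT2

open Vale.LT (trPow IsH1 IsPotential NegSystem LTconst Lone)

theorem trPow_roots {m : ℕ} (p : ℝ) {A : Matrix (Fin m) (Fin m) ℂ} (hA : A.IsHermitian) :
    trPow p A = (A.charpoly.roots.map (fun z : ℂ => z.re ^ p)).sum := by
  unfold Vale.LT.trPow
  rw [dif_pos hA, hA.roots_charpoly_eq_eigenvalues, Multiset.map_map]
  rfl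

theorem trPow_transpose {N : ℕ} (A : Mat N) (hA : A.IsHermitian) (s : ℝ) :
    trPow s Aᵀ = trPow s A := by
  rw [trPow_roots s hA, trPow_roots s hA.transpose, Matrix.charpoly_transpose]

/-! ### Row FC: `V V*` and `V* V` -/
theorem trPow_mul_comm {N m : ℕ} (V : Matrix (Fin N) (Fin m) ℂ) (s : ℝ) (hs : 0 < s) :
    trPow s (V * Vᴴ) = trPow s (Vᴴ * V) := by
  rw [trPow_roots s (isHermitian_mul_conjTranspose_self V),
    trPow_roots s (isHermitian_conjTranspose_mul_self V)]
  have h := Matrix.charpoly_mul_comm' V Vᴴ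
  have h1 := congrArg Polynomial.roots h
  have hm1 := (Matrix.charpoly_monic (V * Vᴴ)).ne_zero
  have hm2 := (Matrix.charpoly_monic (Vᴴ * V)).ne_zero
  have hX : ∀ k : ℕ, (X : ℂ[X]) ^ k ≠ 0 := fun k => pow_ne_zero _ X_ne_zero
  rw [Polynomial.roots_mul (mul_ne_zero (hX _) hm1), Polynomial.roots_mul (mul_ne_zero (hX _) hm2),
    Polynomial.roots_X_pow, Polynomial.roots_X_pow] at h1
  have h2 := congrArg (fun t => (Multiset.map (fun z : ℂ => z.re ^ s) t).sum) h1
  simp only [Multiset.map_add, Multiset.sum_add, Multiset.map_nsmul, Multiset.map_singleton,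
    Multiset.sum_nsmul, Multiset.sum_singleton, Complex.zero_re, Real.zero_rpow hs.ne', smul_zero,
    zero_add] at h2
  exact h2

end Vale.LT2
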