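import Vale.Agent.H17.FoulkesDefs

/-!
# The Foulkes–Howe map on symmetric tensors: basic properties (helper file for P181)
-/

namespace Vale.Agent.H17.Foulkes

open Finset

theorem IsSymSym.add {a b n : ℕ} {S T : Tens (Fin a × Fin b) n} (hS : IsSymSym S)
    (hT : IsSymSym T) : IsSymSym (S + T) :=
  ⟨fun ρ N => by simp only [Pi.add_apply, hS.1, hT.1],
    fun π N => by simp only [Pi.add_apply, hS.2, hT.2]⟩

theorem IsSymSym.zero {a b n : ℕ} : IsSymSym (0 : Tens (Fin a × Fin b) n) :=
  ⟨fun _ _ => rfl, fun _ _ => rfl⟩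

theorem IsSymSym.smul {a b n : ℕ} (c : ℂ) {T : Tens (Fin a × Fin b) n}
    (hT : IsSymSym T) : IsSymSym (c • T) :=
  ⟨fun ρ N => by simp only [Pi.smul_apply, hT.1],
    fun π N => by simp only [Pi.smul_apply, hT.2]⟩

/-- `Sym^a(Sym^b ℂ^n)` as the space of tensors of order `a·b`, with slots in `a` rows of length
`b`, invariant under permutations inside each row and under permutations of the rows. -/
def SymSym (a b n : ℕ) : Submodule ℂ (Tens (Fin a × Fin b) n) where
  carrier := {T | IsSymSym T}
  add_mem' := IsSymSym.add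
  zero_mem' := IsSymSym.zero
  smul_mem' := IsSymSym.smul

/-- The Foulkes–Howe map as a linear map. -/
noncomputable def Psi (a b n : ℕ) : Tens (Fin a × Fin b) n →ₗ[ℂ] Tens (Fin b × Fin a) n where
  toFun T := psi T
  map_add' S T := by
    funext M
    simp only [psi, Pi.add_apply, Finset.sum_add_distrib]
  map_smul' c T := by
    funext M
    simp only [psi, Pi.smul_apply, smul_eq_mul, Finset.mul_sum, RingHom.id_apply]

theorem Psi_apply (a b n : ℕ) (T : Tens (Fin a × Fin b) n) (M : Fin b × Fin a → Fin n) :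
    Psi a b n T M = ∑ σ : Fin b → Equiv.Perm (Fin a), T (fun z => M (z.2, σ z.2 z.1)) := rfl

/-- column-permuting bijection from rows×columns to columns×rows. -/
def colEquiv {a b : ℕ} (σ : Fin b → Equiv.Perm (Fin a)) : Fin a × Fin b ≃ Fin b × Fin a where
  toFun z := (z.2, σ z.2 z.1)
  invFun w := ((σ w.1).symm w.2, w.1)
  left_inv z := by simp
  right_inv w := by simp

/-- row-permuting bijection. -/
def rowEquiv {a b : ℕ} (ρ : Fin a → Equiv.Perm (Fin b)) : Equiv.Perm (Fin a × Fin b) where
  toFun z := (z.1, ρ z.1 z.2)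
  invFun w := (w.1, (ρ w.1).symm w.2)
  left_inv z := by simp
  right_inv w := by simp

/-- bijection permuting the rows. -/
def rowsEquiv {a b : ℕ} (π : Equiv.Perm (Fin a)) : Equiv.Perm (Fin a × Fin b) where
  toFun z := (π z.1, z.2)
  invFun w := (π.symm w.1, w.2)
  left_inv z := by simp
  right_inv w := by simp

/-- `act` commutes with relabelling of the slots. -/
theorem act_relabel {Z W : Type} [Fintype Z] [DecidableEq Z] [Fintype W] [DecidableEq W]
    {m n : ℕ} (g : Matrix (Fin m) (Fin n) ℂ) (T : Tens Z n) (e : Z ≃ W) (N : W → Fin m) :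
    act g T (fun z => N (e z)) = act g (fun M : W → Fin n => T (fun z => M (e z))) N := by
  unfold act
  refine Fintype.sum_equiv (Equiv.arrowCongr e (Equiv.refl _)) _ _ ?_
  intro M
  have h1 : (fun z => (Equiv.arrowCongr e (Equiv.refl (Fin n))) M (e z)) = M := by
    funext z
    simp [Equiv.arrowCongr]
  have h2 : ∏ z, g (N z) ((Equiv.arrowCongr e (Equiv.refl (Fin n))) M z) =
      ∏ z, g (N (e z)) (M z) := by
    rw [← Equiv.prod_comp e]
    refine Finset.prod_congr rfl fun z _ => ?_
    simp [Equiv.arrowCongr]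
  simp only [h1, h2]

theorem act_mem {a b m n : ℕ} (g : Matrix (Fin m) (Fin n) ℂ) {T : Tens (Fin a × Fin b) n}
    (hT : T ∈ SymSym a b n) : act g T ∈ SymSym a b m := by
  refine ⟨fun ρ N => ?_, fun π N => ?_⟩
  · have := act_relabel g T (rowEquiv ρ) N
    simp only [rowEquiv, Equiv.coe_fn_mk] at this
    rw [this]
    congr 1
    funext M
    exact hT.1 ρ M
  · have := act_relabel g T (rowsEquiv π) N
    simp only [rowsEquiv, Equiv.coe_fn_mk] at this
    rw [this]
    congr 1
    funext M
    exact hT.2 π M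

theorem act_sum {Z : Type} [Fintype Z] [DecidableEq Z] {m n : ℕ} {ι : Type} (s : Finset ι)
    (g : Matrix (Fin m) (Fin n) ℂ) (T : ι → Tens Z n) :
    act g (∑ i ∈ s, T i) = ∑ i ∈ s, act g (T i) := by
  funext N
  simp only [act, Finset.sum_apply, Finset.mul_sum]
  rw [Finset.sum_comm]

theorem act_add {Z : Type} [Fintype Z] [DecidableEq Z] {m n : ℕ}
    (g : Matrix (Fin m) (Fin n) ℂ) (S T : Tens Z n) :
    act g (S + T) = act g S + act g T := by
  funext N
  simp only [act, Pi.add_apply, mul_add, Finset.sum_add_distrib]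

theorem act_smul {Z : Type} [Fintype Z] [DecidableEq Z] {m n : ℕ}
    (g : Matrix (Fin m) (Fin n) ℂ) (c : ℂ) (T : Tens Z n) :
    act g (c • T) = c • act g T := by
  funext N
  simp only [act, Pi.smul_apply, smul_eq_mul, Finset.mul_sum]
  exact Finset.sum_congr rfl fun M _ => by ring

/-- the Foulkes–Howe map is equivariant (even for rectangular matrices). -/
theorem Psi_act {a b m n : ℕ} (g : Matrix (Fin m) (Fin n) ℂ) (T : Tens (Fin a × Fin b) n) :
    Psi a b m (act g T) = act g (Psi a b n T) := by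
  funext M
  rw [Psi_apply]
  have h : ∀ σ : Fin b → Equiv.Perm (Fin a),
      act g T (fun z => M (z.2, σ z.2 z.1)) =
        act g (fun N : Fin b × Fin a → Fin n => T (fun z => N (z.2, σ z.2 z.1))) M := by
    intro σ
    exact act_relabel g T (colEquiv σ) M
  simp only [h]
  have h2 : Psi a b n T = ∑ σ : Fin b → Equiv.Perm (Fin a),
      (fun N : Fin b × Fin a → Fin n => T (fun z => N (z.2, σ z.2 z.1))) := by
    funext N
    rw [Psi_apply, Finset.sum_apply]
  rw [h2, act_sum, Finset.sum_apply]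

/-- the Foulkes–Howe map sends `Sym^a(Sym^b)` into `Sym^b(Sym^a)`. -/
theorem Psi_mem {a b n : ℕ} {T : Tens (Fin a × Fin b) n} (hT : T ∈ SymSym a b n) :
    Psi a b n T ∈ SymSym b a n := by
  refine ⟨fun ρ M => ?_, fun π M => ?_⟩
  · rw [Psi_apply, Psi_apply]
    refine Fintype.sum_equiv (Equiv.piCongrRight fun j => Equiv.mulLeft (ρ j)) _ _ ?_
    intro σ
    rfl
  · rw [Psi_apply, Psi_apply]
    refine Fintype.sum_equiv (Equiv.arrowCongr π (Equiv.refl (Equiv.Perm (Fin a)))) _ _ ?_
    intro σ
    have h := hT.1 (fun _ => π) (fun z => M (z.2, σ (π.symm z.2) z.1))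
    simp only [Equiv.symm_apply_apply] at h
    simpa [Equiv.arrowCongr] using h

end Vale.Agent.H17.Foulkes
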