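import Mathlib

/-!
# The combinatorial core (helper file for P181)

A function `τ` of maps `φ : R → A` (rows), invariant under permutations of the rows, such that for
every labelling `χ` of `R` (columns) the sum of `τ φ` over all `φ` with `(φ, χ)` injective is
zero, vanishes identically.
-/

namespace Vale.Agent.H17.Foulkes

open Finset Classical

section core
variable {R A : Type} [Fintype R] [Fintype A]

/-- size of a block of `π`. -/
noncomputable def blk {Λ : Type} (π : R → Λ) (c : Λ) : ℕ := (univ.filter fun y => π y = c).card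

/-- families of roots of unity. -/
noncomputable def fam {Λ : Type} (π : R → Λ) : Finset (R → ℂ) :=
  Fintype.piFinset fun x => Polynomial.nthRootsFinset (blk π (π x)) (1 : ℂ)

theorem blk_pos {Λ : Type} (π : R → Λ) (x : R) : 0 < blk π (π x) :=
  Finset.card_pos.mpr ⟨x, by simp⟩

theorem mem_fam {Λ : Type} {π : R → Λ} {ω : R → ℂ} :
    ω ∈ fam π ↔ ∀ x, ω x ^ (blk π (π x)) = 1 := by
  unfold fam
  rw [Fintype.mem_piFinset]
  exact forall_congr' fun x => Polynomial.mem_nthRootsFinset (blk_pos π x) _

/-- the weight of a map `φ`. -/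
noncomputable def wt {Λ : Type} (π : R → Λ) (φ : R → A) : ℂ :=
  ∑ ω ∈ fam π, (∏ x, ω x) *
    (if (∀ x y, π x = π y → ω x = ω y → φ x = φ y → x = y) then 1 else 0)

theorem wt_eq_zero {Λ : Type} (π : R → Λ) (φ : R → A) {x0 y0 : R} (hxy : π x0 = π y0)
    (hne : φ x0 ≠ φ y0) : wt π φ = 0 := by
  set k := blk π (π x0) with hk
  set F : Finset R := univ.filter fun x => π x = π x0 ∧ φ x = φ x0 with hF
  have hkpos : 0 < k := blk_pos π x0
  have hFlt : F.card < k := by
    refine Finset.card_lt_card ?_
    rw [Finset.ssubset_iff_of_subset]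
    · refine ⟨y0, by simp [hxy], ?_⟩
      simp only [hF, mem_filter, mem_univ, true_and, not_and]
      intro _ h
      exact hne h.symm
    · intro x hx
      simp only [hF, mem_filter, mem_univ, true_and] at hx ⊢
      exact hx.1
  have hFpos : F.card ≠ 0 := by
    refine Finset.card_ne_zero_of_mem (a := x0) ?_
    simp [hF]
  set ζ : ℂ := Complex.exp (2 * Real.pi * Complex.I / k) with hζ
  have hprim : IsPrimitiveRoot ζ k := Complex.isPrimitiveRoot_exp k hkpos.ne'
  have hζ0 : ζ ≠ 0 := Complex.exp_ne_zero _
  have hζk : ζ ^ k = 1 := hprim.pow_eq_one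
  have hζF : ζ ^ F.card ≠ 1 := hprim.pow_ne_one_of_pos_of_lt hFpos hFlt
  -- shift
  have hshift : ∀ (η : ℂ), η ^ k = 1 → ∀ ω ∈ fam π,
      (fun x => if x ∈ F then η * ω x else ω x) ∈ fam π := by
    intro η hη ω hω
    rw [mem_fam] at hω ⊢
    intro x
    by_cases hx : x ∈ F
    · simp only [hx, if_true]
      have hx' : π x = π x0 := by
        simp only [hF, mem_filter, mem_univ, true_and] at hx
        exact hx.1
      have := hω x
      rw [hx'] at this ⊢
      rw [mul_pow, this, ← hk, hη, one_mul]
    · simp only [hx, if_false]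
      exact hω x
  have key : wt π φ = ζ ^ F.card * wt π φ := by
    conv_rhs => unfold wt
    rw [Finset.mul_sum]
    unfold wt
    refine Finset.sum_nbij' (i := fun ω => fun x => if x ∈ F then ζ⁻¹ * ω x else ω x)
      (j := fun ω => fun x => if x ∈ F then ζ * ω x else ω x) ?_ ?_ ?_ ?_ ?_
    · intro ω hω
      exact hshift ζ⁻¹ (by rw [inv_pow, hζk, inv_one]) ω hω
    · intro ω hω
      exact hshift ζ hζk ω hω
    · intro ω _
      funext x
      by_cases hx : x ∈ F
      · simp [hx, hζ0]
      · simp [hx]
    · intro ω _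
      funext x
      by_cases hx : x ∈ F
      · simp [hx, hζ0]
      · simp [hx]
    · intro ω _
      have hprod : (∏ x, ω x) = ζ ^ F.card * ∏ x, (if x ∈ F then ζ⁻¹ * ω x else ω x) := by
        have h1 : ∀ x, (if x ∈ F then ζ⁻¹ * ω x else ω x) = (if x ∈ F then ζ⁻¹ else 1) * ω x := by
          intro x
          split_ifs <;> simp
        simp only [h1]
        rw [Finset.prod_mul_distrib, Finset.prod_ite_mem, Finset.univ_inter, Finset.prod_const,
          ← mul_assoc, ← mul_pow, mul_inv_cancel₀ hζ0, one_pow, one_mul]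
      have hcond : (∀ x y, π x = π y → ω x = ω y → φ x = φ y → x = y) ↔
          (∀ x y, π x = π y →
            (if x ∈ F then ζ⁻¹ * ω x else ω x) = (if y ∈ F then ζ⁻¹ * ω y else ω y) →
            φ x = φ y → x = y) := by
        have hFF : ∀ x y, π x = π y → φ x = φ y → (x ∈ F ↔ y ∈ F) := by
          intro x y h1 h2
          simp [hF, h1, h2]
        constructor
        · intro h x y h1 h2 h3
          have h4 := hFF x y h1 h3
          by_cases hx : x ∈ F
          · have hy := h4.1 hx
            simp only [hx, hy, if_true] at h2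
            exact h x y h1 (mul_left_cancel₀ (inv_ne_zero hζ0) h2) h3
          · have hy : y ∉ F := fun hy => hx (h4.2 hy)
            simp only [hx, hy, if_false] at h2
            exact h x y h1 h2 h3
        · intro h x y h1 h2 h3
          have h4 := hFF x y h1 h3
          refine h x y h1 ?_ h3
          by_cases hx : x ∈ F
          · have hy := h4.1 hx
            simp only [hx, hy, if_true, h2]
          · have hy : y ∉ F := fun hy => hx (h4.2 hy)
            simp only [hx, hy, if_false, h2]
      rw [← mul_assoc, ← hprod]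
      congr 1
      exact if_congr hcond rfl rfl
  have h0 : (1 - ζ ^ F.card) * wt π φ = 0 := by
    rw [sub_mul, one_mul, ← key, sub_self]
  rcases mul_eq_zero.mp h0 with h | h
  · exact absurd (sub_eq_zero.mp h).symm hζF
  · exact h

/-- the common weight of maps which are constant on blocks. -/
noncomputable def wt0 {Λ : Type} (π : R → Λ) : ℂ :=
  ∑ ω ∈ fam π, (∏ x, ω x) * (if (∀ x y, π x = π y → ω x = ω y → x = y) then 1 else 0)

theorem wt_const {Λ : Type} (π : R → Λ) (φ : R → A) (h : ∀ x y, π x = π y → φ x = φ y) :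
    wt π φ = wt0 π := by
  unfold wt wt0
  refine Finset.sum_congr rfl fun ω _ => ?_
  congr 1
  refine if_congr ?_ rfl rfl
  exact ⟨fun H x y h1 h2 => H x y h1 h2 (h x y h1), fun H x y h1 h2 _ => H x y h1 h2⟩

theorem card_roots (k : ℕ) (hk : 0 < k) : (Polynomial.nthRootsFinset k (1 : ℂ)).card = k :=
  (Complex.isPrimitiveRoot_exp k hk.ne').card_nthRootsFinset

theorem prod_fam {Λ : Type} (π : R → Λ) (ω : R → ℂ) (hω : ω ∈ fam π)
    (hinj : ∀ x y, π x = π y → ω x = ω y → x = y) :
    ∏ x, ω x = ∏ c ∈ univ.image π, ∏ z ∈ Polynomial.nthRootsFinset (blk π c) (1 : ℂ), z := by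
  rw [← Finset.prod_fiberwise_of_maps_to (t := univ.image π) (g := π)
    (fun x _ => Finset.mem_image_of_mem π (mem_univ x))]
  refine Finset.prod_congr rfl fun c hc => ?_
  obtain ⟨x1, -, hx1⟩ := Finset.mem_image.mp hc
  have hinj' : Set.InjOn ω (univ.filter fun x => π x = c : Finset R) := by
    intro x hx y hy hxy
    simp only [coe_filter, mem_univ, true_and, Set.mem_ofPred_eq] at hx hy
    exact hinj x y (hx.trans hy.symm) hxy
  have himg : (univ.filter fun x => π x = c).image ω =
      Polynomial.nthRootsFinset (blk π c) (1 : ℂ) := by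
    refine Finset.eq_of_subset_of_card_le ?_ ?_
    · intro z hz
      obtain ⟨x, hx, rfl⟩ := Finset.mem_image.mp hz
      simp only [mem_filter, mem_univ, true_and] at hx
      rw [mem_fam] at hω
      have hb : 0 < blk π c := by
        rw [← hx]
        exact blk_pos π x
      rw [Polynomial.mem_nthRootsFinset hb]
      rw [← hx]
      exact hω x
    · have hb : 0 < blk π c := by
        rw [← hx1]
        exact blk_pos π x1
      rw [card_roots _ hb, Finset.card_image_of_injOn hinj']
      rfl
  rw [← himg, Finset.prod_image hinj']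

theorem exists_fam {Λ : Type} (π : R → Λ) :
    ∃ ω ∈ fam π, ∀ x y, π x = π y → ω x = ω y → x = y := by
  have hcard : ∀ x : R, (univ.filter fun y => π y = π x).card =
      (Polynomial.nthRootsFinset (blk π (π x)) (1 : ℂ)).card := by
    intro x
    rw [card_roots _ (blk_pos π x)]
    rfl
  have hcard' : ∀ c ∈ univ.image π, (univ.filter fun y => π y = c).card =
      (Polynomial.nthRootsFinset (blk π c) (1 : ℂ)).card := by
    intro c hc
    obtain ⟨x, -, rfl⟩ := Finset.mem_image.mp hc
    exact hcard x
  choose! e he using fun (c : Λ) (hc : c ∈ univ.image π) =>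
    (⟨fun x => if h : x ∈ (univ.filter fun y => π y = c) then
        ((Finset.equivOfCardEq (hcard' c hc)) ⟨x, h⟩ : ℂ) else 0, by
      refine ⟨fun x hx => ?_, fun x hx y hy hxy => ?_⟩
      · simp only [hx, dif_pos]
        exact ((Finset.equivOfCardEq (hcard' c hc)) ⟨x, hx⟩).2
      · simp only [hx, hy, dif_pos] at hxy
        have := (Finset.equivOfCardEq (hcard' c hc)).injective (Subtype.ext hxy)
        exact Subtype.ext_iff.mp this⟩ :
      ∃ f : R → ℂ, (∀ x ∈ (univ.filter fun y => π y = c),
        f x ∈ Polynomial.nthRootsFinset (blk π c) (1 : ℂ)) ∧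
        (∀ x ∈ (univ.filter fun y => π y = c), ∀ y ∈ (univ.filter fun y => π y = c),
          f x = f y → x = y))
  refine ⟨fun x => e (π x) x, ?_, ?_⟩
  · unfold fam
    rw [Fintype.mem_piFinset]
    intro x
    exact (he (π x) (Finset.mem_image_of_mem π (mem_univ x))).1 x (by simp)
  · intro x y hxy h
    simp only [← hxy] at h
    exact (he (π x) (Finset.mem_image_of_mem π (mem_univ x))).2 x (by simp) y (by simp [hxy]) h

theorem wt0_ne_zero {Λ : Type} (π : R → Λ) : wt0 π ≠ 0 := by
  set K0 : ℂ := ∏ c ∈ univ.image π, ∏ z ∈ Polynomial.nthRootsFinset (blk π c) (1 : ℂ), z with hK0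
  have hK : K0 ≠ 0 := by
    refine Finset.prod_ne_zero_iff.mpr fun c hc => Finset.prod_ne_zero_iff.mpr fun z hz => ?_
    obtain ⟨x, -, rfl⟩ := Finset.mem_image.mp hc
    rw [Polynomial.mem_nthRootsFinset (blk_pos π x)] at hz
    rintro rfl
    rw [zero_pow (blk_pos π x).ne'] at hz
    exact zero_ne_one hz
  have h1 : wt0 π = K0 * ((fam π).filter
      fun ω => ∀ x y, π x = π y → ω x = ω y → x = y).card := by
    unfold wt0
    simp only [mul_ite, mul_one, mul_zero]
    rw [← Finset.sum_filter, Finset.sum_congr rfl (g := fun _ => K0)]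
    · rw [Finset.sum_const, nsmul_eq_mul, mul_comm]
    · intro ω hω
      rw [mem_filter] at hω
      exact prod_fam π ω hω.1 hω.2
  rw [h1]
  refine mul_ne_zero hK ?_
  obtain ⟨ω, hω, hω2⟩ := exists_fam π
  rw [Nat.cast_ne_zero]
  exact Finset.card_ne_zero_of_mem (mem_filter.mpr ⟨hω, hω2⟩)

theorem core1 {Λ : Type} (τ : (R → A) → ℂ)
    (h : ∀ χ : R → Λ × ℂ, ∑ φ : R → A,
      (if (∀ x y, χ x = χ y → φ x = φ y → x = y) then τ φ else 0) = 0)
    (π : R → Λ) :
    ∑ φ : R → A, (if (∀ x y, π x = π y → φ x = φ y) then τ φ else 0) = 0 := by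
  have h1 : ∑ φ : R → A, wt π φ * τ φ = 0 := by
    unfold wt
    simp only [Finset.sum_mul]
    rw [Finset.sum_comm]
    refine Finset.sum_eq_zero fun ω _ => ?_
    have := h (fun x => (π x, ω x))
    have h2 : ∀ φ : R → A, (∏ x, ω x) *
        (if (∀ x y, π x = π y → ω x = ω y → φ x = φ y → x = y) then (1 : ℂ) else 0) * τ φ =
        (∏ x, ω x) * (if (∀ x y, (π x, ω x) = (π y, ω y) → φ x = φ y → x = y)
          then τ φ else 0) := by
      intro φ
      have h3 : (∀ x y, π x = π y → ω x = ω y → φ x = φ y → x = y) ↔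
          (∀ x y, (π x, ω x) = (π y, ω y) → φ x = φ y → x = y) := by
        constructor
        · intro H x y hxy
          rw [Prod.mk.injEq] at hxy
          exact H x y hxy.1 hxy.2
        · intro H x y h1 h2
          exact H x y (by rw [h1, h2])
      rw [if_congr h3 rfl rfl]
      split_ifs <;> ring
    simp only [h2]
    rw [← Finset.mul_sum, this, mul_zero]
  have h2 : ∀ φ : R → A, wt π φ * τ φ =
      wt0 π * (if (∀ x y, π x = π y → φ x = φ y) then τ φ else 0) := by
    intro φ
    by_cases hφ : ∀ x y, π x = π y → φ x = φ y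
    · rw [wt_const π φ hφ, if_pos hφ]
    · rw [if_neg hφ, mul_zero]
      push Not at hφ
      obtain ⟨x0, y0, h3, h4⟩ := hφ
      rw [wt_eq_zero π φ h3 h4, zero_mul]
  simp only [h2] at h1
  rw [← Finset.mul_sum] at h1
  exact (mul_eq_zero.mp h1).resolve_left (wt0_ne_zero π)

theorem core (τ : (R → A) → ℂ) (hinv : ∀ (π : Equiv.Perm A) φ, τ (fun x => π (φ x)) = τ φ)
    (h : ∀ χ : R → A × ℂ, ∑ φ : R → A,
      (if (∀ x y, χ x = χ y → φ x = φ y → x = y) then τ φ else 0) = 0) :
    ∀ φ, τ φ = 0 := by
  have main : ∀ n : ℕ, ∀ φ : R → A, (univ.image φ).card = n → τ φ = 0 := by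
    intro n
    induction n using Nat.strong_induction_on with
    | _ n ih =>
      intro φ0 hφ0
      have h1 := core1 τ h φ0
      have h2 : ∀ φ : R → A, (if (∀ x y, φ0 x = φ0 y → φ x = φ y) then τ φ else 0) =
          (if (∀ x y, φ0 x = φ0 y → φ x = φ y) ∧ (univ.image φ).card = n then τ φ0 else 0) := by
        intro φ
        by_cases hc : ∀ x y, φ0 x = φ0 y → φ x = φ y
        · -- φ factors through φ0
          have hle : (univ.image φ).card ≤ (univ.image φ0).card := by
            have hf : ∀ c ∈ univ.image φ, ∃ d, d ∈ univ.image φ0 ∧ ∀ x, φ0 x = d → φ x = c := by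
              intro c hc'
              obtain ⟨x, -, rfl⟩ := Finset.mem_image.mp hc'
              exact ⟨φ0 x, Finset.mem_image_of_mem _ (mem_univ _), fun y hy => hc y x hy⟩
            choose! f hf1 hf2 using hf
            refine Finset.card_le_card_of_injOn f (fun c hc' => hf1 c hc') ?_
            intro c hc1 d hd1 hcd
            obtain ⟨x, -, hx⟩ := Finset.mem_image.mp (hf1 c hc1)
            rw [← hf2 c hc1 x hx, ← hf2 d hd1 x (hx.trans hcd)]
          by_cases hn : (univ.image φ).card = n
          · rw [if_pos hc, if_pos ⟨hc, hn⟩]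
            -- a permutation taking φ0 to φ
            have hbij : ∃ e : {y // y ∈ univ.image φ0} ≃ {y // y ∈ univ.image φ},
                ∀ x, (e ⟨φ0 x, Finset.mem_image_of_mem _ (mem_univ _)⟩ : A) = φ x := by
              let f : {y // y ∈ univ.image φ0} → {y // y ∈ univ.image φ} := fun y =>
                ⟨φ (Finset.mem_image.mp y.2).choose, Finset.mem_image_of_mem _ (mem_univ _)⟩
              have hfx : ∀ x, (f ⟨φ0 x, Finset.mem_image_of_mem _ (mem_univ _)⟩ : A) = φ x := by
                intro x
                have := (Finset.mem_image.mp (Finset.mem_image_of_mem φ0 (mem_univ x))).choose_spec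
                exact hc _ _ this.2
              have hsurj : Function.Surjective f := by
                rintro ⟨y, hy⟩
                obtain ⟨x, -, rfl⟩ := Finset.mem_image.mp hy
                exact ⟨⟨φ0 x, Finset.mem_image_of_mem _ (mem_univ _)⟩, Subtype.ext (hfx x)⟩
              have hcardeq : Fintype.card {y // y ∈ univ.image φ0} =
                  Fintype.card {y // y ∈ univ.image φ} := by
                rw [Fintype.card_coe, Fintype.card_coe, hφ0, hn]
              refine ⟨Equiv.ofBijective f ?_, hfx⟩
              rw [Fintype.bijective_iff_surjective_and_card]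
              refine ⟨hsurj, ?_⟩
              convert hcardeq
            obtain ⟨e, he⟩ := hbij
            have : τ φ = τ (fun x => e.extendSubtype (φ0 x)) := by
              congr 1
              funext x
              rw [Equiv.extendSubtype_apply_of_mem e (φ0 x)
                (Finset.mem_image_of_mem _ (mem_univ _)), he x]
            rw [this, hinv]
          · rw [if_pos hc, if_neg (fun hh => hn hh.2)]
            exact ih _ (lt_of_le_of_ne (hle.trans_eq hφ0) hn) φ rfl
        · rw [if_neg hc, if_neg (fun hh => hc hh.1)]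
      simp only [h2] at h1
      rw [← Finset.sum_filter, Finset.sum_const, nsmul_eq_mul] at h1
      refine (mul_eq_zero.mp h1).resolve_left ?_
      exact Nat.cast_ne_zero.mpr (Finset.card_ne_zero_of_mem
        (mem_filter.mpr ⟨mem_univ φ0, fun x y h => h, hφ0⟩))
  intro φ
  exact main _ φ rfl

end core

end Vale.Agent.H17.Foulkes
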