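import Vale.Agent.H17.FoulkesMain

/-!
# The canonical map on products, and multiplicities (helper file for P181)
-/

namespace Vale.Agent.H17.Foulkes

open Finset Classical

theorem IsHW.add {a b n : ℕ} {lam : Fin n → ℕ} {S T : Tens (Fin a × Fin b) n}
    (hS : IsHW lam S) (hT : IsHW lam T) : IsHW lam (S + T) := by
  obtain ⟨h1, h2, h3⟩ := hS
  obtain ⟨h4, h5, h6⟩ := hT
  refine ⟨IsSymSym.add h1 h4, fun t => ?_, fun u hu1 hu2 => ?_⟩
  · rw [act_add, h2, h5, smul_add]
  · rw [act_add, h3 u hu1 hu2, h6 u hu1 hu2]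

theorem IsHW.zero {a b n : ℕ} {lam : Fin n → ℕ} : IsHW lam (0 : Tens (Fin a × Fin b) n) := by
  refine ⟨IsSymSym.zero, fun t => ?_, fun u hu1 hu2 => ?_⟩
  · rw [smul_zero]
    funext N
    simp [act]
  · funext N
    simp [act]

theorem IsHW.smul {a b n : ℕ} {lam : Fin n → ℕ} (c : ℂ) {T : Tens (Fin a × Fin b) n}
    (hT : IsHW lam T) : IsHW lam (c • T) := by
  obtain ⟨h1, h2, h3⟩ := hT
  refine ⟨IsSymSym.smul c h1, fun t => ?_, fun u hu1 hu2 => ?_⟩
  · rw [act_smul, h2, smul_comm]
  · rw [act_smul, h3 u hu1 hu2]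

/-- The space of highest weight vectors of weight `lam` in `Sym^a(Sym^b ℂ^n)`. -/
def HW (a b n : ℕ) (lam : Fin n → ℕ) : Submodule ℂ (Tens (Fin a × Fin b) n) where
  carrier := {T | IsHW lam T}
  add_mem' := IsHW.add
  zero_mem' := IsHW.zero
  smul_mem' := IsHW.smul

section
variable {a b n : ℕ}

theorem Psi_mem_HW (lam : Fin n → ℕ) {T : Tens (Fin a × Fin b) n} (hT : T ∈ HW a b n lam) :
    Psi a b n T ∈ HW b a n lam := by
  refine ⟨Psi_mem hT.1, fun t => ?_, fun u hu1 hu2 => ?_⟩
  · rw [← Psi_act, hT.2.1 t, map_smul]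
  · rw [← Psi_act, hT.2.2 u hu1 hu2]

theorem mult_le (lam : Fin n → ℕ)
    (h : ∀ T ∈ HW a b n lam, Psi a b n T = 0 → T = 0) :
    Module.finrank ℂ (HW a b n lam) ≤ Module.finrank ℂ (HW b a n lam) := by
  let f : HW a b n lam →ₗ[ℂ] HW b a n lam :=
    (Psi a b n).restrict (p := HW a b n lam) (q := HW b a n lam) fun T hT => Psi_mem_HW lam hT
  refine LinearMap.finrank_le_finrank_of_injective (f := f) ?_
  rw [← LinearMap.ker_eq_bot, LinearMap.ker_eq_bot']
  rintro ⟨T, hT⟩ hf
  apply Subtype.ext
  exact h T hT (Subtype.ext_iff.mp hf)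

theorem act_diagonal (t : Fin n → ℂ) (T : Tens (Fin a × Fin b) n) (N : Fin a × Fin b → Fin n) :
    act (Matrix.diagonal t) T N = (∏ z, t (N z)) * T N := by
  unfold act
  rw [Finset.sum_eq_single N]
  · simp
  · intro M _ hM
    have : ∃ z, N z ≠ M z := by
      by_contra h
      push Not at h
      exact hM (funext h).symm
    obtain ⟨z, hz⟩ := this
    rw [Finset.prod_eq_zero (mem_univ z), zero_mul]
    exact Matrix.diagonal_apply_ne _ hz
  · intro h
    exact absurd (mem_univ _) h

/-- entries of a weight vector. -/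
theorem HW_weight (lam : Fin n → ℕ) {T : Tens (Fin a × Fin b) n} (hT : T ∈ HW a b n lam)
    (N : Fin a × Fin b → Fin n) (hN : T N ≠ 0) (s : Fin n) :
    (univ.filter fun z => N z = s).card = lam s := by
  have h := congrFun (hT.2.1 (Function.update 1 s 2)) N
  rw [act_diagonal, Pi.smul_apply, smul_eq_mul] at h
  have h2 := mul_right_cancel₀ hN h
  have h3 : ∏ z, (Function.update (1 : Fin n → ℂ) s 2) (N z) =
      2 ^ (univ.filter fun z => N z = s).card := by
    rw [← Finset.prod_const, Finset.prod_filter]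
    refine Finset.prod_congr rfl fun z _ => ?_
    by_cases hz : N z = s
    · rw [if_pos hz, hz, Function.update_self]
    · rw [if_neg hz, Function.update_of_ne hz]
      rfl
  have h4 : ∏ i, (Function.update (1 : Fin n → ℂ) s 2) i ^ lam i = 2 ^ lam s := by
    rw [Finset.prod_eq_single s]
    · rw [Function.update_self]
    · intro i _ hi
      rw [Function.update_of_ne hi]
      simp
    · intro h
      exact absurd (mem_univ _) h
  rw [h3, h4] at h2
  have h5 : (2 : ℕ) ^ (univ.filter fun z => N z = s).card = 2 ^ lam s := by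
    exact_mod_cast h2
  exact Nat.pow_right_injective (le_refl 2) h5

theorem mult_le_of_first (lam : Fin n → ℕ) (s : Fin n) (hs : a * b ≤ lam s + b) :
    Module.finrank ℂ (HW a b n lam) ≤ Module.finrank ℂ (HW b a n lam) := by
  refine mult_le lam fun T hT hΨ => inj_weight T hT.1 s (fun N hN => ?_) hΨ
  have h1 := HW_weight lam hT N hN s
  have h2 := Finset.card_filter_add_card_filter_not (s := (univ : Finset (Fin a × Fin b)))
    (fun z => N z = s)
  rw [h1, card_univ, Fintype.card_prod, Fintype.card_fin, Fintype.card_fin] at h2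
  have h3 : (univ.filter fun z => N z ≠ s).card = (univ.filter fun z => ¬ N z = s).card := rfl
  omega

theorem prodSym_mem (v : Fin a × Fin b → (Fin n → ℂ)) : (prodSym v : Tens (Fin a × Fin b) n) ∈ SymSym a b n := by
  refine ⟨fun τ N => ?_, fun τ N => ?_⟩
  · unfold prodSym
    refine Finset.sum_congr rfl fun π _ => ?_
    refine Fintype.sum_equiv (Equiv.piCongrRight fun i => Equiv.mulRight (τ i)⁻¹) _ _ ?_
    intro ρ
    rw [← Equiv.prod_comp (rowEquiv τ) (fun z => v (π z.1,
      (Equiv.piCongrRight fun i => Equiv.mulRight (τ i)⁻¹) ρ z.1 z.2) (N z))]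
    refine Finset.prod_congr rfl fun z _ => ?_
    simp [rowEquiv]
  · unfold prodSym
    refine Fintype.sum_equiv (Equiv.mulRight τ⁻¹) _ _ ?_
    intro π
    refine Fintype.sum_equiv (Equiv.arrowCongr τ (Equiv.refl (Equiv.Perm (Fin b)))) _ _ ?_
    intro ρ
    rw [← Equiv.prod_comp (rowsEquiv τ) (fun z => v ((Equiv.mulRight τ⁻¹) π z.1,
      (Equiv.arrowCongr τ (Equiv.refl (Equiv.Perm (Fin b)))) ρ z.1 z.2) (N z))]
    refine Finset.prod_congr rfl fun z _ => ?_
    simp [rowsEquiv, Equiv.arrowCongr]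

/-- every element of `SymSym` is a combination of the `prodSym`. -/
theorem span_prodSym : Submodule.span ℂ (Set.range (prodSym (a := a) (b := b) (n := n))) = SymSym a b n := by
  apply le_antisymm
  · rw [Submodule.span_le]
    rintro _ ⟨v, rfl⟩
    exact prodSym_mem v
  · intro T hT
    set C : ℂ := (Fintype.card (Equiv.Perm (Fin a)) : ℂ) *
      (Fintype.card (Fin a → Equiv.Perm (Fin b)) : ℂ) with hC
    have hC0 : C ≠ 0 := mul_ne_zero (Nat.cast_ne_zero.mpr Fintype.card_ne_zero)
      (Nat.cast_ne_zero.mpr Fintype.card_ne_zero)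
    have key : C • T = ∑ M : Fin a × Fin b → Fin n,
        T M • prodSym (fun z => Pi.single (M z) 1) := by
      funext N
      rw [Finset.sum_apply]
      simp only [Pi.smul_apply, smul_eq_mul, prodSym, Finset.mul_sum]
      rw [Finset.sum_comm]
      have h1 : ∀ π : Equiv.Perm (Fin a), ∑ M : Fin a × Fin b → Fin n,
          ∑ ρ : Fin a → Equiv.Perm (Fin b),
          T M * ∏ z, (Pi.single (M (π z.1, ρ z.1 z.2)) (1 : ℂ) : Fin n → ℂ) (N z) =
          (Fintype.card (Fin a → Equiv.Perm (Fin b)) : ℂ) * T N := by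
        intro π
        rw [Finset.sum_comm]
        have h2 : ∀ ρ : Fin a → Equiv.Perm (Fin b), ∑ M : Fin a × Fin b → Fin n,
            T M * ∏ z, (Pi.single (M (π z.1, ρ z.1 z.2)) (1 : ℂ) : Fin n → ℂ) (N z) = T N := by
          intro ρ
          let e : Equiv.Perm (Fin a × Fin b) := (rowEquiv ρ).trans (rowsEquiv π)
          have he : ∀ z, e z = (π z.1, ρ z.1 z.2) := fun z => rfl
          rw [Finset.sum_eq_single (fun z => N (e.symm z))]
          · have h3 : ∏ z, (Pi.single ((fun z => N (e.symm z)) (π z.1, ρ z.1 z.2)) (1 : ℂ) :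
                Fin n → ℂ) (N z) = 1 := by
              refine Finset.prod_eq_one fun z _ => ?_
              rw [← he]
              simp
            rw [h3, mul_one]
            have h4 := hT.1 ρ (fun z => N (e.symm (rowsEquiv π z)))
            have h5 := hT.2 π (fun z => N (e.symm z))
            have h6 : (fun z : Fin a × Fin b => N (e.symm (rowsEquiv π (z.1, ρ z.1 z.2)))) = N := by
              funext z
              have : rowsEquiv π (z.1, ρ z.1 z.2) = e z := rfl
              rw [this, Equiv.symm_apply_apply]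
            rw [h6] at h4
            rw [h4]
            exact h5.symm
          · intro M _ hM
            have : ∃ z, N z ≠ M (π z.1, ρ z.1 z.2) := by
              by_contra h
              push Not at h
              apply hM
              funext z
              rw [h]
              change M z = M (e (e.symm z))
              rw [Equiv.apply_symm_apply]
            obtain ⟨z, hz⟩ := this
            rw [Finset.prod_eq_zero (mem_univ z), mul_zero]
            exact Pi.single_eq_of_ne hz 1
          · intro h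
            exact absurd (mem_univ _) h
        simp only [h2, Finset.sum_const, card_univ, nsmul_eq_mul]
      simp only [h1, Finset.sum_const, card_univ, nsmul_eq_mul]
      rw [hC]
      ring
    have h2 : T = C⁻¹ • ∑ M : Fin a × Fin b → Fin n,
        T M • prodSym (fun z => Pi.single (M z) 1) := by
      rw [← key, smul_smul, inv_mul_cancel₀ hC0, one_smul]
    rw [h2]
    refine Submodule.smul_mem _ _ (Submodule.sum_mem _ fun M _ => Submodule.smul_mem _ _ ?_)
    exact Submodule.subset_span ⟨_, rfl⟩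

/-- On products `Psi` is the Foulkes–Howe map, up to the factor `a!/b!`. -/
theorem Psi_prodSym (v : Fin a × Fin b → (Fin n → ℂ)) :
    (b.factorial : ℂ) • Psi a b n (prodSym v) =
      (a.factorial : ℂ) • ∑ ρ : Fin a → Equiv.Perm (Fin b),
        prodSym (fun w : Fin b × Fin a => v (w.2, ρ w.2 w.1)) := by
  funext M
  rw [Pi.smul_apply, Pi.smul_apply, Finset.sum_apply, Psi_apply]
  unfold prodSym
  simp only [smul_eq_mul]
  set X : ℂ := ∑ ρ : Fin a → Equiv.Perm (Fin b), ∑ τ : Fin b → Equiv.Perm (Fin a),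
    ∏ w : Fin b × Fin a, v (τ w.1 w.2, ρ (τ w.1 w.2) w.1) (M w) with hX
  have hleft : ∀ π : Equiv.Perm (Fin a), ∑ σ : Fin b → Equiv.Perm (Fin a),
      ∑ ρ : Fin a → Equiv.Perm (Fin b),
      ∏ z : Fin a × Fin b, v (π z.1, ρ z.1 z.2) (M (z.2, σ z.2 z.1)) = X := by
    intro π
    rw [hX, Finset.sum_comm]
    refine Fintype.sum_equiv (Equiv.arrowCongr π (Equiv.refl (Equiv.Perm (Fin b)))) _ _ ?_
    intro ρ
    refine Fintype.sum_equiv (Equiv.piCongrRight fun _ =>
      (Equiv.inv (Equiv.Perm (Fin a))).trans (Equiv.mulLeft π)) _ _ ?_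
    intro σ
    rw [← Equiv.prod_comp (colEquiv σ)]
    refine Finset.prod_congr rfl fun z _ => ?_
    simp [colEquiv, Equiv.arrowCongr]
  have hright : ∀ π : Equiv.Perm (Fin b), ∑ ρ : Fin a → Equiv.Perm (Fin b),
      ∑ τ : Fin b → Equiv.Perm (Fin a),
      ∏ w : Fin b × Fin a, v (τ w.1 w.2, ρ (τ w.1 w.2) (π w.1)) (M w) = X := by
    intro π
    rw [hX]
    refine Fintype.sum_equiv (Equiv.piCongrRight fun _ => Equiv.mulRight π) _ _ ?_
    intro ρ
    refine Finset.sum_congr rfl fun τ _ => ?_
    refine Finset.prod_congr rfl fun w _ => ?_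
    simp
  have h1 : ∑ σ : Fin b → Equiv.Perm (Fin a), ∑ π : Equiv.Perm (Fin a),
      ∑ ρ : Fin a → Equiv.Perm (Fin b),
      ∏ z : Fin a × Fin b, v (π z.1, ρ z.1 z.2) (M (z.2, σ z.2 z.1)) = (a.factorial : ℂ) * X := by
    rw [Finset.sum_comm]
    simp only [hleft, Finset.sum_const, card_univ, nsmul_eq_mul, Fintype.card_perm,
      Fintype.card_fin]
  have h2 : ∑ ρ : Fin a → Equiv.Perm (Fin b), ∑ π : Equiv.Perm (Fin b),
      ∑ τ : Fin b → Equiv.Perm (Fin a),
      ∏ w : Fin b × Fin a, v (τ w.1 w.2, ρ (τ w.1 w.2) (π w.1)) (M w) =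
      (b.factorial : ℂ) * X := by
    rw [Finset.sum_comm]
    simp only [hright, Finset.sum_const, card_univ, nsmul_eq_mul, Fintype.card_perm,
      Fintype.card_fin]
  rw [h1, h2]
  ring

theorem mult_eq (a b n : ℕ) (lam : Fin n → ℕ) :
    mult a b n lam = Module.finrank ℂ (HW a b n lam) := by
  unfold mult
  have : Submodule.span ℂ {T : Tens (Fin a × Fin b) n | IsHW lam T} = HW a b n lam :=
    Submodule.span_eq (HW a b n lam)
  rw [this]

theorem mult_le_of_inj (lam : Fin n → ℕ) (h : PsiInjective a b n) :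
    mult a b n lam ≤ mult b a n lam := by
  rw [mult_eq, mult_eq]
  exact mult_le lam fun T hT => h T hT.1

theorem embeds_of_inj (h : PsiInjective a b n) : Embeds a b n :=
  ⟨Psi a b n, fun T hT => Psi_mem hT, h, fun g T => Psi_act g T⟩

theorem psi_canonical (a b n : ℕ) : PsiCanonical a b n := by
  refine ⟨fun v => ⟨prodSym_mem v, Psi_prodSym v⟩, fun T hT => ⟨?_, Psi_mem hT⟩,
    fun m g T => Psi_act g T⟩
  have : T ∈ SymSym a b n := hT
  rwa [← span_prodSym] at this

end

end Vale.Agent.H17.Foulkes
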