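import Vale.Agent.H17.FoulkesT1Plus
import Vale.Agent.H17.FoulkesFinal

/-!
# The cubic threshold and propagation for a fixed space (helper file for P181)
-/

namespace Vale.Agent.H17.Foulkes

open Finset Classical

section
variable {a b n : ℕ}

theorem Lf_update (T : Tens (Fin a × Fin b) n) (v : Fin a × Fin b → (Fin n → ℂ))
    (p : Fin a × Fin b) (x : Fin n → ℂ) : Lf T (Function.update v p x) =
      ∑ N : Fin a × Fin b → Fin n, T N * (x (N p) * ∏ z ∈ univ.erase p, v z (N z)) := by
  unfold Lf
  refine Finset.sum_congr rfl fun N _ => ?_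
  congr 1
  rw [← Finset.mul_prod_erase univ _ (mem_univ p), Function.update_self]
  congr 1
  refine Finset.prod_congr rfl fun z hz => ?_
  rw [Function.update_of_ne (Finset.ne_of_mem_erase hz)]

/-- the pairing as a multilinear map. -/
noncomputable def LM (T : Tens (Fin a × Fin b) n) :
    MultilinearMap ℂ (fun _ : Fin a × Fin b => (Fin n → ℂ)) ℂ :=
  MultilinearMap.mk' (fun v => Lf T v)
    (fun v p x y => by
      rw [Lf_update, Lf_update, Lf_update, ← Finset.sum_add_distrib]
      refine Finset.sum_congr rfl fun N _ => ?_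
      rw [Pi.add_apply]
      ring)
    (fun v p c x => by
      rw [Lf_update, Lf_update, smul_eq_mul, Finset.mul_sum]
      refine Finset.sum_congr rfl fun N _ => ?_
      rw [Pi.smul_apply, smul_eq_mul]
      ring)

theorem LM_apply (T : Tens (Fin a × Fin b) n) (v : Fin a × Fin b → (Fin n → ℂ)) :
    LM T v = Lf T v := rfl

/-- a permutation preserving the rows comes from permutations inside the rows. -/
theorem exists_rowEquiv (e : Equiv.Perm (Fin a × Fin b)) (he : ∀ z, (e z).1 = z.1) :
    ∃ ρ : Fin a → Equiv.Perm (Fin b), ∀ z, e z = rowEquiv ρ z := by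
  have hbij : ∀ i : Fin a, Function.Bijective fun j : Fin b => (e (i, j)).2 := by
    intro i
    rw [Fintype.bijective_iff_injective_and_card]
    refine ⟨fun j j' h => ?_, rfl⟩
    have : e (i, j) = e (i, j') := Prod.ext ((he (i, j)).trans (he (i, j')).symm) h
    exact (Prod.mk.injEq _ _ _ _ ▸ e.injective this).2
  refine ⟨fun i => Equiv.ofBijective _ (hbij i), fun z => ?_⟩
  exact Prod.ext (he z) rfl

/-- `L` is invariant under row-preserving permutations. -/
theorem LM_rowSym (T : Tens (Fin a × Fin b) n) (hT : T ∈ SymSym a b n) :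
    RowSym (fun v => LM T v) := by
  intro e he v
  obtain ⟨ρ, hρ⟩ := exists_rowEquiv e he
  change Lf T _ = Lf T _
  have : (fun z => v (e z)) = fun z => v (rowEquiv ρ z) := by
    funext z
    rw [hρ]
  rw [this, Lf_relabel]
  unfold Lf
  refine Finset.sum_congr rfl fun N _ => ?_
  congr 1
  exact hT.1 ρ N

/-- glueing: the columns `≥ t` are replaced by `w`. -/
noncomputable def glue {E : Type} (t q : ℕ) (htq : t + q = b) (v : Fin a × Fin b → E)
    (w : Fin a × Fin q → E) : Fin a × Fin b → E :=
  fun z => if h : t ≤ (z.2 : ℕ) then w (z.1, ⟨(z.2 : ℕ) - t, by have := z.2.2; omega⟩) else v z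

theorem glue_update {E : Type} (t q : ℕ) (htq : t + q = b) (v : Fin a × Fin b → E)
    (w : Fin a × Fin q → E) (p : Fin a × Fin q) (hp : t + (p.2 : ℕ) < b) (x : E) :
    glue t q htq v (Function.update w p x) =
      Function.update (glue t q htq v w) (p.1, ⟨t + (p.2 : ℕ), hp⟩) x := by
  funext z
  by_cases hzp : z = (p.1, ⟨t + (p.2 : ℕ), hp⟩)
  · rw [hzp, Function.update_self]
    unfold glue
    rw [dif_pos (Nat.le_add_right t (p.2 : ℕ))]
    have : (p.1, (⟨t + (p.2 : ℕ) - t, by have := p.2.2; omega⟩ : Fin q)) = p :=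
      Prod.ext rfl (Fin.ext (by simp))
    rw [this, Function.update_self]
  · rw [Function.update_of_ne hzp]
    unfold glue
    by_cases hz : t ≤ (z.2 : ℕ)
    · rw [dif_pos hz, dif_pos hz, Function.update_of_ne]
      intro h
      apply hzp
      have h1 : z.1 = p.1 := congrArg Prod.fst h
      have h2 : (z.2 : ℕ) - t = (p.2 : ℕ) := congrArg (fun r => (r.2 : ℕ)) h
      exact Prod.ext h1 (Fin.ext (by
        change (z.2 : ℕ) = t + (p.2 : ℕ)
        omega))
    · rw [dif_neg hz, dif_neg hz]

/-- the multilinear form in the last `q` columns. -/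
noncomputable def LMglue (T : Tens (Fin a × Fin b) n) (t q : ℕ) (htq : t + q = b)
    (v : Fin a × Fin b → (Fin n → ℂ)) :
    MultilinearMap ℂ (fun _ : Fin a × Fin q => (Fin n → ℂ)) ℂ :=
  MultilinearMap.mk' (fun w => LM T (glue t q htq v w))
    (fun w p x y => by
      have hp : t + (p.2 : ℕ) < b := by have := p.2.2; omega
      rw [glue_update t q htq v w p hp, glue_update t q htq v w p hp,
        glue_update t q htq v w p hp, MultilinearMap.map_update_add])
    (fun w p c x => by
      have hp : t + (p.2 : ℕ) < b := by have := p.2.2; omega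
      rw [glue_update t q htq v w p hp, glue_update t q htq v w p hp,
        MultilinearMap.map_update_smul])

theorem LMglue_apply (T : Tens (Fin a × Fin b) n) (t q : ℕ) (htq : t + q = b)
    (v : Fin a × Fin b → (Fin n → ℂ)) (w : Fin a × Fin q → (Fin n → ℂ)) :
    LMglue T t q htq v w = LM T (glue t q htq v w) := rfl

/-- the lift of a row-preserving permutation of the last `q` columns. -/
theorem LMglue_rowSym (T : Tens (Fin a × Fin b) n) (hT : T ∈ SymSym a b n) (t q : ℕ)
    (htq : t + q = b) (v : Fin a × Fin b → (Fin n → ℂ)) :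
    RowSym (fun w => LMglue T t q htq v w) := by
  intro e he w
  change LM T _ = LM T _
  obtain ⟨ρ, hρ⟩ := exists_rowEquiv e he
  -- embed the columns
  let ι : {c : Fin b // t ≤ (c : ℕ)} ≃ Fin q :=
    { toFun := fun c => ⟨(c.1 : ℕ) - t, by have := c.1.2; have := c.2; omega⟩
      invFun := fun c => ⟨⟨t + (c : ℕ), by have := c.2; omega⟩, Nat.le_add_right _ _⟩
      left_inv := fun c => Subtype.ext (Fin.ext (by
        change t + ((c.1 : ℕ) - t) = (c.1 : ℕ)
        have := c.2
        omega))
      right_inv := fun c => Fin.ext (by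
        change t + (c : ℕ) - t = (c : ℕ)
        omega) }
  let ρ' : Fin a → Equiv.Perm (Fin b) := fun i =>
    Equiv.Perm.ofSubtype (p := fun c : Fin b => t ≤ (c : ℕ)) ((ι.trans (ρ i)).trans ι.symm)
  have h := LM_rowSym T hT (rowEquiv ρ') (fun z => rfl) (glue t q htq v w)
  refine Eq.trans ?_ h
  change LM T _ = LM T _
  congr 1
  funext z
  by_cases hz : t ≤ (z.2 : ℕ)
  · have h1 : ρ' z.1 z.2 = (ι.symm (ρ z.1 (ι ⟨z.2, hz⟩)) : Fin b) :=
      Equiv.Perm.ofSubtype_apply_of_mem (p := fun c : Fin b => t ≤ (c : ℕ)) _ hz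
    have h2 : t ≤ ((rowEquiv ρ' z).2 : ℕ) := by
      change t ≤ ((ρ' z.1 z.2 : Fin b) : ℕ)
      rw [h1]
      exact (ι.symm (ρ z.1 (ι ⟨z.2, hz⟩))).2
    unfold glue
    rw [dif_pos hz, dif_pos h2]
    change w (e _) = _
    rw [hρ]
    congr 1
    refine Prod.ext rfl ?_
    change ρ z.1 _ = _
    have h3 : (⟨((rowEquiv ρ' z).2 : ℕ) - t, by
        have := (rowEquiv ρ' z).2.2; omega⟩ : Fin q) = ι ⟨(rowEquiv ρ' z).2, h2⟩ := rfl
    rw [h3]
    have h4 : (⟨(rowEquiv ρ' z).2, h2⟩ : {c : Fin b // t ≤ (c : ℕ)}) =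
        ι.symm (ρ z.1 (ι ⟨z.2, hz⟩)) := Subtype.ext h1
    rw [h4, Equiv.apply_symm_apply]
    rfl
  · have h1 : ρ' z.1 z.2 = z.2 :=
      Equiv.Perm.ofSubtype_apply_of_not_mem (p := fun c : Fin b => t ≤ (c : ℕ)) _ hz
    have h2 : rowEquiv ρ' z = z := Prod.ext rfl h1
    unfold glue
    rw [h2]
    simp only [hz, dif_neg, not_false_eq_true]

/-- The condition: the first `m` columns are constant equal to `ℓ`, the columns up to `t` are
constant. -/
def Struct {E : Type} (m t : ℕ) (ℓ : E) (v : Fin a × Fin b → E) : Prop :=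
  (∀ z : Fin a × Fin b, (z.2 : ℕ) < m → v z = ℓ) ∧
    ∀ c : Fin b, (c : ℕ) < t → ∃ y, ∀ i, v (i, c) = y

/-- one more constant column suffices, as long as there are at least `a` free columns. -/
theorem reduce_one (T : Tens (Fin a × Fin b) n) (hT : T ∈ SymSym a b n) (m t : ℕ) (hmt : m ≤ t)
    (hat : t + a ≤ b)
    (H : ∀ (ℓ : Fin n → ℂ) v, Struct m (t + 1) ℓ v → LM T v = 0) (ℓ : Fin n → ℂ)
    (v : Fin a × Fin b → (Fin n → ℂ)) (hv : Struct m t ℓ v) : LM T v = 0 := by
  obtain ⟨q, hq⟩ : ∃ q, t + q = b := ⟨b - t, by omega⟩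
  have key := dm (LMglue T t q hq v) (LMglue_rowSym T hT t q hq v) 1 (by omega) ?_
    (fun z => v (z.1, ⟨t + (z.2 : ℕ), by have := z.2.2; omega⟩))
  · rw [LMglue_apply] at key
    rw [← key]
    congr 1
    funext z
    unfold glue
    by_cases hz : t ≤ (z.2 : ℕ)
    · rw [dif_pos hz]
      congr 1
      refine Prod.ext rfl (Fin.ext ?_)
      change (z.2 : ℕ) = t + ((z.2 : ℕ) - t)
      omega
    · rw [dif_neg hz]
  · intro y w hw
    rw [LMglue_apply]
    apply H ℓ
    refine ⟨fun z hz => ?_, fun c hc => ?_⟩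
    · unfold glue
      rw [dif_neg (by omega)]
      exact hv.1 z hz
    · rcases Nat.lt_or_ge (c : ℕ) t with hct | hct
      · obtain ⟨y', hy'⟩ := hv.2 c hct
        refine ⟨y', fun i => ?_⟩
        unfold glue
        rw [dif_neg (by simpa using hct)]
        exact hy' i
      · refine ⟨y, fun i => ?_⟩
        unfold glue
        rw [dif_pos (by simpa using hct)]
        apply hw
        change (c : ℕ) - t < 1
        omega

/-- Injectivity beyond the cubic threshold. -/
theorem inj_cubic (ha : 1 ≤ a) (hb : a * ((a - 1) * (a - 1) - 1) ≤ b)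
    (T : Tens (Fin a × Fin b) n) (hT : T ∈ SymSym a b n) (hΨ : Psi a b n T = 0) : T = 0 := by
  set m : ℕ := (a - 1) * (a - 1) - 1 with hm
  have hgood : Good (fun v => LM T v) := Lf_good T hT hΨ
  have hmb : m ≤ b := le_trans (Nat.le_mul_of_pos_left m ha) hb
  -- the columns from `t` on are free, at most `a - 1` of them
  have hbase : ∀ t, m ≤ t → t ≤ b → b < t + a → ∀ (ℓ : Fin n → ℂ)
      (v : Fin a × Fin b → (Fin n → ℂ)), Struct m t ℓ v → LM T v = 0 := by
    intro t hmt htb hta ℓ v hv
    choose! f hf using hv.2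
    refine vanish_plus (L := fun v => LM T v) hgood
      (fun c => if (c : ℕ) < m then ℓ else if (c : ℕ) < t then f c else ℓ) ℓ
      (univ.filter fun c : Fin b => (c : ℕ) < m ∨ t ≤ (c : ℕ)) ?_
      (univ ×ˢ (univ.filter fun c : Fin b => t ≤ (c : ℕ))) ?_ ?_ v ?_
    · intro c hc
      rw [mem_filter] at hc
      by_cases h1 : (c : ℕ) < m
      · rw [if_pos h1]
      · rw [if_neg h1, if_neg]
        rcases hc.2 with h | h
        · exact absurd h h1
        · omega
    · intro z hz
      rw [mem_product, mem_filter] at hz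
      exact mem_filter.mpr ⟨mem_univ _, Or.inr hz.2.2⟩
    · -- counting
      have h1 : (univ.filter fun c : Fin b => t ≤ (c : ℕ)).card = b - t := by
        have : (univ.filter fun c : Fin b => t ≤ (c : ℕ)).map Fin.valEmbedding =
            Finset.Ico t b := by
          ext x
          simp only [mem_map, mem_filter, mem_univ, true_and, Fin.valEmbedding_apply, mem_Ico]
          constructor
          · rintro ⟨j, h, rfl⟩
            exact ⟨h, j.2⟩
          · intro h
            exact ⟨⟨x, h.2⟩, h.1, rfl⟩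
        rw [← Finset.card_map Fin.valEmbedding, this, Nat.card_Ico]
      have h2 : (univ.filter fun c : Fin b => (c : ℕ) < m).card = m := by
        have : (univ.filter fun c : Fin b => (c : ℕ) < m).map Fin.valEmbedding =
            Finset.range m := by
          ext x
          simp only [mem_map, mem_filter, mem_univ, true_and, Fin.valEmbedding_apply, mem_range]
          constructor
          · rintro ⟨j, h, rfl⟩
            exact h
          · intro h
            exact ⟨⟨x, by omega⟩, h, rfl⟩
        rw [← Finset.card_map Fin.valEmbedding, this, card_range]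
      have h3 : (univ.filter fun c : Fin b => (c : ℕ) < m ∨ t ≤ (c : ℕ)).card = m + (b - t) := by
        rw [Finset.filter_or, Finset.card_union_of_disjoint, h1, h2]
        rw [Finset.disjoint_left]
        intro c hc1 hc2
        rw [mem_filter] at hc1 hc2
        omega
      rw [card_product, h1, h3, card_univ, Fintype.card_fin]
      obtain ⟨a', rfl⟩ : ∃ a', a = a' + 1 := ⟨a - 1, by omega⟩
      simp only [Nat.add_sub_cancel] at hm
      have h4 : b - t ≤ a' := by omega
      have h5 : a' * (b - t) ≤ a' * a' := Nat.mul_le_mul le_rfl h4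
      have h6 : (a' + 1) * (b - t) = a' * (b - t) + (b - t) := by ring
      omega
    · intro z hz
      have hz' : (z.2 : ℕ) < t := by
        by_contra h
        apply hz
        exact mem_product.mpr ⟨mem_univ _, mem_filter.mpr ⟨mem_univ _, by omega⟩⟩
      by_cases h1 : (z.2 : ℕ) < m
      · rw [if_pos h1]
        exact hv.1 z h1
      · rw [if_neg h1, if_pos hz']
        exact hf z.2 hz' z.1
  have hmain : ∀ k, ∀ t, m ≤ t → t + k = b → ∀ (ℓ : Fin n → ℂ)
      (v : Fin a × Fin b → (Fin n → ℂ)), Struct m t ℓ v → LM T v = 0 := by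
    intro k
    induction k with
    | zero =>
      intro t hmt ht ℓ v hv
      exact hbase t hmt (by omega) (by omega) ℓ v hv
    | succ k ih =>
      intro t hmt ht ℓ v hv
      by_cases hta : t + a ≤ b
      · exact reduce_one T hT m t hmt hta
          (fun ℓ' v' h' => ih (t + 1) (by omega) (by omega) ℓ' v' h') ℓ v hv
      · exact hbase t hmt (by omega) (by omega) ℓ v hv
  have hall := dm (LM T) (LM_rowSym T hT) m hb (fun ℓ v hv =>
    hmain (b - m) m le_rfl (by omega) ℓ v ⟨hv, fun c hc => ⟨ℓ, fun i => hv (i, c) hc⟩⟩)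
  funext N0
  rw [← Lf_single T N0]
  exact hall _

end

end Vale.Agent.H17.Foulkes
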