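import Vale.Agent.H17.FoulkesMain

/-!
# The Dedekind–Mertens type lemma (helper file for P181)
-/

namespace Vale.Agent.H17.Foulkes

open Finset Classical

section general
variable {I : Type} [Fintype I] {E : Type} [AddCommGroup E] [Module ℂ E]

/-- a multilinear form along an affine line is a polynomial of degree at most the number of
moving slots. -/
theorem poly_affine (f : MultilinearMap ℂ (fun _ : I => E) ℂ) (v w : I → E) (D : Finset I)
    (hD : ∀ z ∉ D, w z = 0) :
    ∃ p : Polynomial ℂ, p.natDegree ≤ D.card ∧ ∀ ε : ℂ, p.eval ε = f (v + ε • w) := by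
  refine ⟨∑ s : Finset I, Polynomial.C (f (s.piecewise v w)) * Polynomial.X ^ (sᶜ).card, ?_, ?_⟩
  · refine Polynomial.natDegree_sum_le_of_forall_le _ _ fun s _ => ?_
    by_cases hs : sᶜ ⊆ D
    · exact (Polynomial.natDegree_C_mul_X_pow_le _ _).trans (Finset.card_le_card hs)
    · obtain ⟨z, hz, hzD⟩ := Finset.not_subset.mp hs
      have : f (s.piecewise v w) = 0 := by
        apply f.map_coord_zero z
        rw [Finset.piecewise_eq_of_notMem _ _ _ (Finset.mem_compl.mp hz)]
        exact hD z hzD
      rw [this]
      simp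
  · intro ε
    rw [f.map_add_univ, Polynomial.eval_finsetSum]
    refine Finset.sum_congr rfl fun s _ => ?_
    have h1 : s.piecewise v (ε • w) = (sᶜ).piecewise (fun z => ε • (s.piecewise v w) z)
        (s.piecewise v w) := by
      funext z
      by_cases hz : z ∈ s
      · rw [Finset.piecewise_eq_of_mem _ _ _ hz, Finset.piecewise_eq_of_notMem _ _ _
          (by simpa using hz), Finset.piecewise_eq_of_mem _ _ _ hz]
      · rw [Finset.piecewise_eq_of_notMem _ _ _ hz, Finset.piecewise_eq_of_mem _ _ _
          (by simpa using hz), Finset.piecewise_eq_of_notMem _ _ _ hz]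
        rfl
    rw [h1, f.map_piecewise_smul]
    simp only [Polynomial.eval_mul, Polynomial.eval_C, Polynomial.eval_pow, Polynomial.eval_X,
      Finset.prod_const, smul_eq_mul]
    ring

/-- Polarization: a symmetric multilinear form vanishing on the diagonal is zero. -/
theorem polarize (f : MultilinearMap ℂ (fun _ : I => E) ℂ)
    (hs : ∀ (σ : Equiv.Perm I) (w : I → E), f (fun i => w (σ i)) = f w)
    (h0 : ∀ y : E, f (fun _ => y) = 0) : ∀ w, f w = 0 := by
  intro w
  let e : (I → I) → (I →₀ ℕ) := fun g => ∑ i, Finsupp.single (g i) 1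
  let p : MvPolynomial I ℂ := ∑ g : I → I, MvPolynomial.monomial (e g) (f (fun i => w (g i)))
  have hp : p = 0 := by
    apply MvPolynomial.funext
    intro x
    have h1 := h0 (∑ j, x j • w j)
    rw [f.map_sum (fun (_ : I) (j : I) => x j • w j)] at h1
    rw [map_zero, ← h1]
    simp only [p, map_sum]
    refine Finset.sum_congr rfl fun g _ => ?_
    rw [MvPolynomial.eval_monomial, f.map_smul_univ (fun i => x (g i)) (fun i => w (g i)),
      smul_eq_mul, mul_comm]
    congr 1
    simp only [e]
    rw [← Finsupp.prod_finsetSum_index (by simp) (fun _ _ _ => pow_add _ _ _)]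
    refine Finset.prod_congr rfl fun z _ => ?_
    rw [Finsupp.prod_single_index (by simp), pow_one]
  have hcoef : MvPolynomial.coeff (e id) p = 0 := by rw [hp, MvPolynomial.coeff_zero]
  simp only [p, MvPolynomial.coeff_sum, MvPolynomial.coeff_monomial] at hcoef
  have hcount : ∀ (g : I → I) (y : I), e g y = (univ.filter fun i => g i = y).card := by
    intro g y
    simp only [e, Finsupp.finsetSum_apply, Finsupp.single_apply]
    simp
  have heq : ∀ g, e g = e id → f (fun i => w (g i)) = f w := by
    intro g hg
    obtain ⟨ρ, hρ⟩ := exists_perm_of_fibers g id (fun y => by rw [← hcount, ← hcount, hg])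
    have : g = fun i => ρ i := by
      funext i
      exact (hρ i).symm
    rw [this]
    exact hs ρ w
  have hsum : ∑ g : I → I, (if e g = e id then f (fun i => w (g i)) else 0) =
      ((univ.filter fun g : I → I => e g = e id).card : ℂ) * f w := by
    rw [← Finset.sum_filter, Finset.sum_congr rfl (g := fun _ => f w)]
    · rw [Finset.sum_const, nsmul_eq_mul]
    · intro g hg
      exact heq g (mem_filter.mp hg).2
  rw [hsum] at hcoef
  refine (mul_eq_zero.mp hcoef).resolve_left ?_
  exact Nat.cast_ne_zero.mpr (Finset.card_ne_zero_of_mem (mem_filter.mpr ⟨mem_univ id, rfl⟩))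

end general

section dm
variable {a q : ℕ} {E : Type} [AddCommGroup E] [Module ℂ E]

/-- invariance under the permutations of the slots which preserve the rows. -/
def RowSym (f : (Fin a × Fin q → E) → ℂ) : Prop :=
  ∀ (e : Equiv.Perm (Fin a × Fin q)), (∀ z, (e z).1 = z.1) → ∀ v, f (fun z => v (e z)) = f v

/-- polarization in one row. -/
theorem polarize_row (f : MultilinearMap ℂ (fun _ : Fin a × Fin q => E) ℂ)
    (hf : RowSym (fun v => f v)) (j : Fin a) (v : Fin a × Fin q → E)
    (h : ∀ y : E, f (fun z => if z.1 = j then y else v z) = 0) : f v = 0 := by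
  let g := f.domDomRestrict (fun z : Fin a × Fin q => z.1 = j) (fun z => v z.1)
  have hg : ∀ w : {z : Fin a × Fin q // z.1 = j} → E,
      g w = f (fun z => if h : z.1 = j then w ⟨z, h⟩ else v z) := fun w => rfl
  have key := polarize g ?_ ?_ (fun z => v z.1)
  · rw [hg] at key
    rw [← key]
    congr 1
    funext z
    split_ifs <;> rfl
  · intro σ w
    rw [hg, hg]
    have h1 := hf (Equiv.Perm.ofSubtype σ) ?_ (fun z => if h : z.1 = j then w ⟨z, h⟩ else v z)
    · refine Eq.trans ?_ h1
      change f _ = f _
      congr 1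
      funext z
      by_cases hz : z.1 = j
      · have h2 : Equiv.Perm.ofSubtype σ z = (σ ⟨z, hz⟩ : Fin a × Fin q) :=
          Equiv.Perm.ofSubtype_apply_of_mem σ hz
        have h3 : (Equiv.Perm.ofSubtype σ z).1 = j := by
          rw [h2]
          exact (σ ⟨z, hz⟩).2
        rw [dif_pos hz, dif_pos h3]
        congr 1
        exact Subtype.ext h2.symm
      · have h2 : Equiv.Perm.ofSubtype σ z = z := Equiv.Perm.ofSubtype_apply_of_not_mem σ hz
        have h3 : ¬ (Equiv.Perm.ofSubtype σ z).1 = j := by
          rw [h2]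
          exact hz
        rw [dif_neg hz, dif_neg h3, h2]
    · intro z
      by_cases hz : z.1 = j
      · have h2 : Equiv.Perm.ofSubtype σ z = (σ ⟨z, hz⟩ : Fin a × Fin q) :=
          Equiv.Perm.ofSubtype_apply_of_mem σ hz
        rw [h2, hz]
        exact (σ ⟨z, hz⟩).2
      · rw [Equiv.Perm.ofSubtype_apply_of_not_mem σ hz]
  · intro y
    rw [hg, ← h y]
    congr 1

/-- The prefix condition. -/
def Pre (m j : ℕ) (ℓ : E) (v : Fin a × Fin q → E) : Prop :=
  ∀ z : Fin a × Fin q, (z.1 : ℕ) < j → (z.2 : ℕ) < m → v z = ℓ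

/-- if `f` vanishes when rows `≤ j` have `m` entries `ℓ` at the beginning, then also when row `j`
has its `m` entries `ℓ` anywhere. -/
theorem vanish_any (f : MultilinearMap ℂ (fun _ : Fin a × Fin q => E) ℂ)
    (hf : RowSym (fun v => f v)) (m : ℕ) (j : Fin a)
    (H : ∀ (ℓ : E) v, Pre m (j + 1) ℓ v → f v = 0) (ℓ : E) (v : Fin a × Fin q → E)
    (hv : Pre m j ℓ v) (S : Finset (Fin q)) (hS : m ≤ S.card) (hvS : ∀ c ∈ S, v (j, c) = ℓ) :
    f v = 0 := by
  -- a permutation of the columns moving the first `m` into `S`
  have hcard : (univ.filter fun c : Fin q => (c : ℕ) < m).card ≤ S.card := by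
    refine le_trans ?_ hS
    have : ((univ.filter fun c : Fin q => (c : ℕ) < m).map Fin.valEmbedding) ⊆ range m := by
      intro x hx
      obtain ⟨c, hc, rfl⟩ := mem_map.mp hx
      exact mem_range.mpr (mem_filter.mp hc).2
    have h2 := Finset.card_le_card this
    rwa [Finset.card_map, card_range] at h2
  obtain ⟨S', hS', hS'card⟩ := Finset.exists_subset_card_eq hcard
  let e0 : {c // c ∈ univ.filter fun c : Fin q => (c : ℕ) < m} ≃ {c // c ∈ S'} :=
    Finset.equivOfCardEq hS'card.symm
  let ρ : Equiv.Perm (Fin q) := e0.extendSubtype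
  have hρ : ∀ c : Fin q, (c : ℕ) < m → ρ c ∈ S := by
    intro c hc
    apply hS'
    exact e0.extendSubtype_mem c (mem_filter.mpr ⟨mem_univ _, hc⟩)
  let e : Equiv.Perm (Fin a × Fin q) := rowEquiv (fun i => if i = j then ρ else Equiv.refl _)
  have h1 : f (fun z => v (e z)) = f v := hf e (fun z => rfl) v
  rw [← h1]
  apply H ℓ
  intro z hz1 hz2
  change v (e z) = ℓ
  by_cases hzj : z.1 = j
  · have : e z = (j, ρ z.2) := by
      change (z.1, (if z.1 = j then ρ else Equiv.refl _) z.2) = _
      rw [if_pos hzj, hzj]
    rw [this]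
    exact hvS _ (hρ _ hz2)
  · have : e z = z := by
      change (z.1, (if z.1 = j then ρ else Equiv.refl _) z.2) = _
      rw [if_neg hzj]
      rfl
    rw [this]
    apply hv z _ hz2
    have : (z.1 : ℕ) ≠ j := fun h => hzj (Fin.ext h)
    omega

theorem dm_step (f : MultilinearMap ℂ (fun _ : Fin a × Fin q => E) ℂ)
    (hf : RowSym (fun v => f v)) (m : ℕ) (hm : a * m ≤ q) (j : Fin a)
    (H : ∀ (ℓ : E) v, Pre m (j + 1) ℓ v → f v = 0) (ℓ : E) (v : Fin a × Fin q → E)
    (hv : Pre m j ℓ v) : f v = 0 := by
  refine polarize_row f hf j v fun y => ?_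
  set x : E := ℓ - y with hx
  set D : Finset (Fin a × Fin q) := univ.filter fun z => (z.1 : ℕ) < j ∧ (z.2 : ℕ) < m with hD
  have hDcard : D.card ≤ (j : ℕ) * m := by
    have : D ⊆ (univ.filter fun i : Fin a => (i : ℕ) < j) ×ˢ
        (univ.filter fun c : Fin q => (c : ℕ) < m) := by
      intro z hz
      rw [hD, mem_filter] at hz
      exact mem_product.mpr ⟨mem_filter.mpr ⟨mem_univ _, hz.2.1⟩,
        mem_filter.mpr ⟨mem_univ _, hz.2.2⟩⟩
    refine (Finset.card_le_card this).trans ?_
    rw [card_product]
    have haux : ∀ (n k : ℕ), (univ.filter fun i : Fin n => (i : ℕ) < k).card ≤ k := by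
      intro n k
      have h1 : ((univ.filter fun i : Fin n => (i : ℕ) < k).map Fin.valEmbedding) ⊆ range k := by
        intro x hx
        obtain ⟨c, hc, rfl⟩ := mem_map.mp hx
        exact mem_range.mpr (mem_filter.mp hc).2
      have h2 := Finset.card_le_card h1
      rwa [Finset.card_map, card_range] at h2
    exact Nat.mul_le_mul (haux _ _) (haux _ _)
  -- the line
  set v0 : Fin a × Fin q → E := fun z => if z.1 = j then y else if z ∈ D then y else v z with hv0
  set w0 : Fin a × Fin q → E := fun z => if z ∈ D then x else 0 with hw0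
  obtain ⟨p, hpdeg, hp⟩ := poly_affine f v0 w0 D (fun z hz => by rw [hw0]; simp [hz])
  have hDj : ∀ z : Fin a × Fin q, z.1 = j → z ∉ D := by
    intro z hz hzD
    rw [hD, mem_filter] at hzD
    rw [hz] at hzD
    exact lt_irrefl _ hzD.2.1
  have hgoal : f (fun z => if z.1 = j then y else v z) = p.eval 1 := by
    rw [hp, one_smul]
    congr 1
    funext z
    rw [Pi.add_apply, hv0, hw0]
    by_cases hz : z.1 = j
    · simp [hz, hDj z hz]
    · by_cases hzD : z ∈ D
      · simp only [hz, hzD, if_true, if_false]
        rw [hD, mem_filter] at hzD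
        rw [hv z hzD.2.1 hzD.2.2, hx]
        abel
      · simp [hz, hzD]
  rw [hgoal]
  -- the row `j` as a finset
  set Rj : Finset (Fin a × Fin q) := univ.filter fun z => z.1 = j with hRj
  -- second expansion
  -- for each `s` a polynomial
  have hps : ∀ s : Finset (Fin a × Fin q), ∃ ps : Polynomial ℂ, ∀ ε : ℂ, ps.eval ε =
      f (s.piecewise (fun z => if z.1 = j then y + ε • x else (v0 + ε • w0) z) (fun _ => x)) := by
    intro s
    obtain ⟨ps, -, hps⟩ := poly_affine f
      (s.piecewise (fun z => if z.1 = j then y else v0 z) (fun _ => x))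
      (s.piecewise (fun z => if z.1 = j then x else w0 z) (fun _ => 0)) univ
      (fun z hz => absurd (mem_univ z) hz)
    refine ⟨ps, fun ε => ?_⟩
    rw [hps]
    congr 1
    funext z
    by_cases hz : z ∈ s
    · simp only [Pi.add_apply, Pi.smul_apply, Finset.piecewise_eq_of_mem _ _ _ hz]
      by_cases hzj : z.1 = j
      · simp [hzj]
      · simp [hzj]
    · simp only [Pi.add_apply, Pi.smul_apply, Finset.piecewise_eq_of_notMem _ _ _ hz]
      simp
  choose ps hps using hps
  have hexp : p = ∑ s ∈ univ.filter (fun s : Finset (Fin a × Fin q) =>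
      sᶜ ⊆ Rj ∧ q < (sᶜ).card + m), (-Polynomial.X) ^ (sᶜ).card * ps s := by
    apply Polynomial.funext
    intro ε
    rw [hp, Polynomial.eval_finsetSum]
    have h1 : v0 + ε • w0 = (fun z => if z.1 = j then y + ε • x else (v0 + ε • w0) z) +
        (fun z => if z.1 = j then (-ε) • x else 0) := by
      funext z
      by_cases hz : z.1 = j
      · simp only [Pi.add_apply, Pi.smul_apply, hz, if_true]
        have h2 : v0 z = y := by simp [hv0, hz]
        have h3 : w0 z = 0 := by simp [hw0, hDj z hz]
        rw [h2, h3, neg_smul]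
        simp
      · simp [hz]
    conv_lhs => rw [h1]
    rw [f.map_add_univ, Finset.sum_filter]
    refine Finset.sum_congr rfl fun s _ => ?_
    by_cases hs : sᶜ ⊆ Rj
    · have h2 : s.piecewise (fun z => if z.1 = j then y + ε • x else (v0 + ε • w0) z)
          (fun z => if z.1 = j then (-ε) • x else 0) =
          (sᶜ).piecewise (fun z => (-ε) • (s.piecewise
            (fun z => if z.1 = j then y + ε • x else (v0 + ε • w0) z) (fun _ => x)) z)
          (s.piecewise (fun z => if z.1 = j then y + ε • x else (v0 + ε • w0) z)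
            (fun _ => x)) := by
        funext z
        by_cases hz : z ∈ s
        · rw [Finset.piecewise_eq_of_mem _ _ _ hz, Finset.piecewise_eq_of_notMem _ _ _
            (by simpa using hz), Finset.piecewise_eq_of_mem _ _ _ hz]
        · have hzc : z ∈ sᶜ := by simpa using hz
          have hzj : z.1 = j := (mem_filter.mp (hs hzc)).2
          rw [Finset.piecewise_eq_of_notMem _ _ _ hz, Finset.piecewise_eq_of_mem _ _ _ hzc,
            Finset.piecewise_eq_of_notMem _ _ _ hz, if_pos hzj]
      rw [h2, f.map_piecewise_smul, Finset.prod_const, ← hps s ε, smul_eq_mul]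
      by_cases hc : q < (sᶜ).card + m
      · rw [if_pos ⟨hs, hc⟩]
        simp
      · rw [if_neg (fun h => hc h.2)]
        -- many entries equal to `y + ε x` in row `j`
        rw [hps s ε, vanish_any f hf m j H (y + ε • x) _ ?_
          (univ.filter fun c : Fin q => (j, c) ∈ s) ?_ ?_, mul_zero]
        · intro z hz1 hz2
          have hzs : z ∈ s := by
            by_contra hzs
            have := (mem_filter.mp (hs (Finset.mem_compl.mpr hzs))).2
            rw [this] at hz1
            exact lt_irrefl _ hz1
          have hzj : z.1 ≠ j := by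
            intro h
            rw [h] at hz1
            exact lt_irrefl _ hz1
          have hzD : z ∈ D := mem_filter.mpr ⟨mem_univ _, hz1, hz2⟩
          rw [Finset.piecewise_eq_of_mem _ _ _ hzs, if_neg hzj, Pi.add_apply, Pi.smul_apply]
          simp [hv0, hw0, hzj, hzD]
        · -- count
          have h3 : (sᶜ).card = (univ.filter fun c : Fin q => (j, c) ∉ s).card := by
            have : (univ.filter fun c : Fin q => (j, c) ∉ s).map
                ⟨fun c => (j, c), fun c c' h => (Prod.mk.injEq _ _ _ _ ▸ h).2⟩ = sᶜ := by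
              ext z
              simp only [mem_map, mem_filter, mem_univ, true_and, mem_compl]
              constructor
              · rintro ⟨c, hc, rfl⟩
                exact hc
              · intro hz
                have hzj : z.1 = j := (mem_filter.mp (hs (Finset.mem_compl.mpr hz))).2
                refine ⟨z.2, ?_, Prod.ext hzj.symm rfl⟩
                rw [← hzj]
                exact hz
            rw [← this, Finset.card_map]
          have h4 := Finset.card_filter_add_card_filter_not (s := (univ : Finset (Fin q)))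
            (fun c : Fin q => (j, c) ∈ s)
          rw [card_univ, Fintype.card_fin] at h4
          omega
        · intro c hc
          rw [mem_filter] at hc
          rw [Finset.piecewise_eq_of_mem _ _ _ hc.2]
          simp
    · rw [if_neg (fun h => hs h.1)]
      obtain ⟨z, hz, hzR⟩ := Finset.not_subset.mp hs
      apply f.map_coord_zero z
      rw [Finset.piecewise_eq_of_notMem _ _ _ (Finset.mem_compl.mp hz), if_neg]
      intro h
      exact hzR (mem_filter.mpr ⟨mem_univ _, h⟩)
  have hjm : ((j : ℕ) + 1) * m ≤ q := by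
    refine le_trans ?_ hm
    exact Nat.mul_le_mul (by omega) le_rfl
  have hjm' : (j : ℕ) * m + m ≤ q := by
    rw [← Nat.succ_mul]
    exact hjm
  have hdvd : (Polynomial.X : Polynomial ℂ) ^ (q + 1 - m) ∣ p := by
    rw [hexp]
    refine Finset.dvd_sum fun s hs => ?_
    rw [mem_filter] at hs
    refine Dvd.dvd.mul_right ?_ _
    rw [neg_pow]
    refine Dvd.dvd.mul_left (pow_dvd_pow _ ?_) _
    omega
  have hp0 : p = 0 := by
    by_contra hne
    have h1 := Polynomial.natDegree_le_of_dvd hdvd hne
    rw [Polynomial.natDegree_X_pow] at h1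
    omega
  rw [hp0, Polynomial.eval_zero]

/-- **Dedekind–Mertens type lemma.**  A row-symmetric multilinear form on `a × q` arrays which
vanishes whenever the first `m` columns are constant with a common value vanishes, if
`a * m ≤ q`. -/
theorem dm (f : MultilinearMap ℂ (fun _ : Fin a × Fin q => E) ℂ)
    (hf : RowSym (fun v => f v)) (m : ℕ) (hm : a * m ≤ q)
    (H : ∀ (ℓ : E) v, (∀ z : Fin a × Fin q, (z.2 : ℕ) < m → v z = ℓ) → f v = 0) :
    ∀ v, f v = 0 := by
  have key : ∀ k : ℕ, ∀ j : ℕ, j + k = a → ∀ (ℓ : E) v, Pre m j ℓ v → f v = 0 := by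
    intro k
    induction k with
    | zero =>
      intro j hj ℓ v hv
      exact H ℓ v (fun z hz => hv z (by have := z.1.2; omega) hz)
    | succ k ih =>
      intro j hj ℓ v hv
      exact dm_step f hf m hm ⟨j, by omega⟩ (fun ℓ' v' h' => ih (j + 1) (by omega) ℓ' v' h') ℓ v hv
  intro v
  exact key a 0 (by omega) 0 v (fun z hz => absurd hz (Nat.not_lt_zero _))

end dm

end Vale.Agent.H17.Foulkes
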