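import Mathlib

/-!
# The Foulkes–Howe map on symmetric tensors: definitions (helper file for P181)

`Tens Z n` is the space of tensors over `ℂ^n` indexed by the finite set `Z` of slots, in
coordinates.  `Sym^a(Sym^b ℂ^n)` is realised as the space of tensors in `(ℂ^n)^{⊗ ab}` which are
symmetric within each of the `a` rows of length `b` and under permutations of the `a` rows.
-/

namespace Vale.Agent.H17.Foulkes

/-- Tensors over `ℂ^n` with slots indexed by `Z`, in coordinates: `T N` is the coefficient of the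
basis tensor `⊗_z e_{N z}`. -/
abbrev Tens (Z : Type) (n : ℕ) := (Z → Fin n) → ℂ

/-- The action of an `m × n` matrix `g` on tensors, `g ⊗ g ⊗ ⋯ ⊗ g`. -/
noncomputable def act {Z : Type} [Fintype Z] [DecidableEq Z] {m n : ℕ}
    (g : Matrix (Fin m) (Fin n) ℂ) (T : Tens Z n) : Tens Z m :=
  fun N => ∑ M : Z → Fin n, (∏ z, g (N z) (M z)) * T M

/-- `T` lies in `Sym^a(Sym^b ℂ^n)`: invariance under permutations inside each of the `a` rows (of
length `b`) and under permutations of the rows. -/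
def IsSymSym {a b n : ℕ} (T : Tens (Fin a × Fin b) n) : Prop :=
  (∀ (ρ : Fin a → Equiv.Perm (Fin b)) (N : Fin a × Fin b → Fin n),
    T (fun z => N (z.1, ρ z.1 z.2)) = T N) ∧
  (∀ (π : Equiv.Perm (Fin a)) (N : Fin a × Fin b → Fin n), T (fun z => N (π z.1, z.2)) = T N)

/-- The Foulkes–Howe map: permute within the columns, then read the array by columns. -/
noncomputable def psi {a b n : ℕ} (T : Tens (Fin a × Fin b) n) : Tens (Fin b × Fin a) n :=
  fun M => ∑ σ : Fin b → Equiv.Perm (Fin a), T (fun z => M (z.2, σ z.2 z.1))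

/-- The element of `Sym^a(Sym^b ℂ^n)` (as a symmetric tensor) given by the product
`∏_i (v_{i1} v_{i2} ⋯ v_{ib})`: the sum of all the rearrangements of the decomposable tensor
`⊗ v_{ij}`, within rows and by permutations of the rows. -/
noncomputable def prodSym {a b n : ℕ} (v : Fin a × Fin b → (Fin n → ℂ)) :
    Tens (Fin a × Fin b) n :=
  fun N => ∑ π : Equiv.Perm (Fin a), ∑ ρ : Fin a → Equiv.Perm (Fin b),
    ∏ z, v (π z.1, ρ z.1 z.2) (N z)

/-- `T` is a vector of `Sym^a(Sym^b ℂ^n)` of weight `lam` for the diagonal matrices, fixed by the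
upper unitriangular matrices. -/
def IsHW {a b n : ℕ} (lam : Fin n → ℕ) (T : Tens (Fin a × Fin b) n) : Prop :=
  IsSymSym T ∧
    (∀ t : Fin n → ℂ, act (Matrix.diagonal t) T = (∏ i, t i ^ lam i) • T) ∧
    (∀ u : Matrix (Fin n) (Fin n) ℂ, (∀ i j, j < i → u i j = 0) → (∀ i, u i i = 1) →
      act u T = T)

/-- The multiplicity of the Schur module `S_lam ℂ^n` in `Sym^a(Sym^b ℂ^n)`: the dimension of the
space of highest weight vectors of weight `lam`. -/
noncomputable def mult (a b n : ℕ) (lam : Fin n → ℕ) : ℕ :=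
  Module.finrank ℂ (Submodule.span ℂ {T : Tens (Fin a × Fin b) n | IsHW lam T})

/-- There is an equivariant (for `GL_n`, indeed for all matrices) injective linear map
`Sym^a(Sym^b ℂ^n) → Sym^b(Sym^a ℂ^n)`. -/
def Embeds (a b n : ℕ) : Prop :=
  ∃ Φ : Tens (Fin a × Fin b) n →ₗ[ℂ] Tens (Fin b × Fin a) n,
    (∀ T, IsSymSym T → IsSymSym (Φ T)) ∧ (∀ T, IsSymSym T → Φ T = 0 → T = 0) ∧
    ∀ (g : Matrix (Fin n) (Fin n) ℂ) (T : Tens (Fin a × Fin b) n), Φ (act g T) = act g (Φ T)

/-- The Foulkes–Howe map is injective on `Sym^a(Sym^b ℂ^n)`. -/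
def PsiInjective (a b n : ℕ) : Prop :=
  ∀ T : Tens (Fin a × Fin b) n, IsSymSym T → psi T = 0 → T = 0

/-- `psi` is, up to a nonzero scalar, the canonical Foulkes–Howe map: it is equivariant, maps
`Sym^a(Sym^b)` to `Sym^b(Sym^a)`, has the defining formula on products, and the products span. -/
def PsiCanonical (a b n : ℕ) : Prop :=
  (∀ v : Fin a × Fin b → (Fin n → ℂ), IsSymSym (prodSym v) ∧
    (b.factorial : ℂ) • psi (prodSym v) = (a.factorial : ℂ) •
      ∑ ρ : Fin a → Equiv.Perm (Fin b), prodSym (fun w : Fin b × Fin a => v (w.2, ρ w.2 w.1))) ∧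
  (∀ T : Tens (Fin a × Fin b) n, IsSymSym T → T ∈ Submodule.span ℂ (Set.range prodSym) ∧
    IsSymSym (psi T)) ∧
  (∀ (m : ℕ) (g : Matrix (Fin m) (Fin n) ℂ) (T : Tens (Fin a × Fin b) n),
    psi (act g T) = act g (psi T))

end Vale.Agent.H17.Foulkes
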