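import Vale.Agent.H17.FoulkesT1

/-!
# The prefix process (helper file for P181)
-/

namespace Vale.Agent.H17.Foulkes

open Finset Classical

/-- Vandermonde vectors. -/
noncomputable def ell (n : ℕ) (k : ℕ) : Fin n → ℂ := fun s => (k : ℂ) ^ (s : ℕ)

/-- any `n` of the Vandermonde vectors span. -/
theorem exists_comb (n : ℕ) (S : Finset ℕ) (hS : n ≤ S.card) (w : Fin n → ℂ) :
    ∃ c : ℕ → ℂ, w = ∑ k ∈ S, c k • ell n k := by
  obtain ⟨S', hS', hcard⟩ := Finset.exists_subset_card_eq hS
  let e := S'.orderEmbOfFin hcard
  let V : Matrix (Fin n) (Fin n) ℂ := Matrix.vandermonde fun i => ((e i : ℕ) : ℂ)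
  have hdet : V.det ≠ 0 := by
    rw [Matrix.det_vandermonde_ne_zero_iff]
    intro i j hij
    exact e.injective (Nat.cast_injective hij)
  let d : Fin n → ℂ := Matrix.vecMul w V⁻¹
  have hd : Matrix.vecMul d V = w := by
    simp only [d]
    rw [Matrix.vecMul_vecMul, Matrix.nonsing_inv_mul _ (by rw [isUnit_iff_ne_zero]; exact hdet),
      Matrix.vecMul_one]
  refine ⟨fun k => if h : ∃ i, e i = k then d h.choose else 0, ?_⟩
  have h1 : ∑ k ∈ S, (if h : ∃ i, e i = k then d h.choose else 0) • ell n k =
      ∑ k ∈ S', (if h : ∃ i, e i = k then d h.choose else 0) • ell n k := by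
    symm
    refine Finset.sum_subset hS' fun k _ hk => ?_
    rw [dif_neg, zero_smul]
    rintro ⟨i, rfl⟩
    exact hk (S'.orderEmbOfFin_mem hcard i)
  rw [h1]
  have h2 : S' = univ.map e.toEmbedding := by
    ext k
    simp only [mem_map, mem_univ, true_and]
    constructor
    · intro hk
      have : k ∈ Set.range e := by
        rw [Finset.range_orderEmbOfFin]
        exact hk
      exact this
    · rintro ⟨i, rfl⟩
      exact S'.orderEmbOfFin_mem hcard i
  rw [h2, Finset.sum_map]
  funext s
  rw [Finset.sum_apply]
  conv_lhs => rw [← hd]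
  simp only [Matrix.vecMul, dotProduct]
  refine Finset.sum_congr rfl fun i _ => ?_
  have h3 : ∃ i', e i' = e.toEmbedding i := ⟨i, rfl⟩
  rw [dif_pos h3]
  have h4 : h3.choose = i := e.injective h3.choose_spec
  rw [h4]
  rfl

/-- multilinearity. -/
def Multi {a b n : ℕ} (L : (Fin a × Fin b → (Fin n → ℂ)) → ℂ) : Prop :=
  ∀ (v : Fin a × Fin b → (Fin n → ℂ)) (p : Fin a × Fin b) (S : Finset ℕ) (c : ℕ → ℂ)
    (w : ℕ → Fin n → ℂ),
    L (Function.update v p (∑ k ∈ S, c k • w k)) = ∑ k ∈ S, c k * L (Function.update v p (w k))

section expand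
variable {a b n : ℕ} {L : (Fin a × Fin b → (Fin n → ℂ)) → ℂ}

/-- `L` vanishes on arrays whose first `t` columns are constant with labels `< K`. -/
def PP (L : (Fin a × Fin b → (Fin n → ℂ)) → ℂ) (K t : ℕ) : Prop :=
  ∀ v : Fin a × Fin b → (Fin n → ℂ),
    (∀ j : Fin b, (j : ℕ) < t → ∃ k < K, ∀ i, v (i, j) = ell n k) → L v = 0

theorem step (hL : Good L) (hM : Multi L) (K q t : ℕ) (hnq : n + q ≤ K + 1) (hq1 : 1 ≤ q)
    (hcommon : a * (K - q) < K) (htq : t + q ≤ b) (hP : PP L K (t + 1)) : PP L K t := by
  set J : Finset (Fin b) := univ.filter fun j => t ≤ (j : ℕ) ∧ (j : ℕ) < t + q with hJ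
  have hJcard : J.card = q := by
    have : J.map Fin.valEmbedding = Finset.Ico t (t + q) := by
      ext x
      simp only [hJ, mem_map, mem_filter, mem_univ, true_and, Fin.valEmbedding_apply, mem_Ico]
      constructor
      · rintro ⟨j, h, rfl⟩
        exact h
      · intro h
        exact ⟨⟨x, by omega⟩, h, rfl⟩
    rw [← Finset.card_map Fin.valEmbedding, this, Nat.card_Ico]
    omega
  set B : Finset (Fin a × Fin b) := univ ×ˢ J with hB
  have claim : ∀ m : ℕ, ∀ S ⊆ B, (B \ S).card = m → ∀ v : Fin a × Fin b → (Fin n → ℂ),
      (∀ j : Fin b, (j : ℕ) < t → ∃ k < K, ∀ i, v (i, j) = ell n k) →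
      (∃ lab : Fin a × Fin b → ℕ, (∀ z ∈ S, lab z < K ∧ v z = ell n (lab z)) ∧
        (∀ z ∈ S, ∀ z' ∈ S, z.1 = z'.1 → lab z = lab z' → z = z')) → L v = 0 := by
    intro m
    induction m with
    | zero =>
      intro S hS hcard v hv hlab
      have hSB : S = B := by
        refine Finset.Subset.antisymm hS ?_
        rw [← Finset.sdiff_eq_empty_iff_subset]
        exact Finset.card_eq_zero.mp hcard
      subst hSB
      obtain ⟨lab, hlab1, hlab2⟩ := hlab
      -- a common label
      have hI : ∀ i : Fin a, (J.image fun j => lab (i, j)).card = q := by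
        intro i
        rw [Finset.card_image_of_injOn, hJcard]
        intro j hj j' hj' hjj
        have := hlab2 (i, j) (by rw [hB]; exact mem_product.mpr ⟨mem_univ _, hj⟩) (i, j')
          (by rw [hB]; exact mem_product.mpr ⟨mem_univ _, hj'⟩) rfl hjj
        exact (Prod.mk.injEq _ _ _ _ ▸ this).2
      have hIsub : ∀ i : Fin a, (J.image fun j => lab (i, j)) ⊆ range K := by
        intro i k hk
        obtain ⟨j, hj, rfl⟩ := mem_image.mp hk
        exact mem_range.mpr (hlab1 (i, j) (mem_product.mpr ⟨mem_univ _, hj⟩)).1
      obtain ⟨k, hk, hkI⟩ : ∃ k, k < K ∧ ∀ i : Fin a, k ∈ J.image fun j => lab (i, j) := by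
        by_contra hne
        push Not at hne
        have hsub : range K ⊆ univ.biUnion fun i : Fin a => range K \ J.image fun j => lab (i, j) := by
          intro k hk
          obtain ⟨i, hi⟩ := hne k (mem_range.mp hk)
          exact mem_biUnion.mpr ⟨i, mem_univ _, mem_sdiff.mpr ⟨hk, hi⟩⟩
        have h1 := Finset.card_le_card hsub
        have h2 := h1.trans Finset.card_biUnion_le
        have h3 : ∀ i : Fin a, (range K \ J.image fun j => lab (i, j)).card = K - q := by
          intro i
          rw [Finset.card_sdiff_of_subset (hIsub i), card_range, hI i]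
        simp only [h3, sum_const, card_univ, Fintype.card_fin, smul_eq_mul, card_range] at h2
        omega
      have hj : ∀ i : Fin a, ∃ j ∈ J, lab (i, j) = k := by
        intro i
        obtain ⟨j, hj, h⟩ := mem_image.mp (hkI i)
        exact ⟨j, hj, h⟩
      choose jj hjJ hjk using hj
      have htb : t < b := by omega
      let t0 : Fin b := ⟨t, htb⟩
      have hvv : L (fun z => v (rowEquiv (fun i => Equiv.swap t0 (jj i)) z)) = 0 := by
        apply hP
        intro j hj
        have hcases : (j : ℕ) < t ∨ (j : ℕ) = t := by omega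
        rcases hcases with hlt | heq
        · obtain ⟨k', hk', h⟩ := hv j hlt
          refine ⟨k', hk', fun i => ?_⟩
          change v (i, Equiv.swap t0 (jj i) j) = _
          rw [Equiv.swap_apply_of_ne_of_ne]
          · exact h i
          · intro hjt
            rw [hjt] at hlt
            exact lt_irrefl _ hlt
          · intro hjt
            have := hjJ i
            rw [← hjt, hJ] at this
            simp only [mem_filter, mem_univ, true_and] at this
            omega
        · refine ⟨k, hk, fun i => ?_⟩
          change v (i, Equiv.swap t0 (jj i) j) = _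
          have hjt : j = t0 := Fin.ext heq
          rw [hjt, Equiv.swap_apply_left]
          have := (hlab1 (i, jj i) (mem_product.mpr ⟨mem_univ _, hjJ i⟩)).2
          rw [this, hjk i]
      rw [hL.row] at hvv
      exact hvv
    | succ m ih =>
      intro S hS hcard v hv hlab
      obtain ⟨lab, hlab1, hlab2⟩ := hlab
      have hne : (B \ S).Nonempty := by
        rw [← Finset.card_pos, hcard]
        omega
      obtain ⟨p, hp⟩ := hne
      have hpB := (mem_sdiff.mp hp).1
      have hpS := (mem_sdiff.mp hp).2
      have hpJ : p.2 ∈ J := (mem_product.mp hpB).2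
      set U : Finset ℕ := (S.filter fun z => z.1 = p.1).image lab with hU
      have hUcard : U.card ≤ q - 1 := by
        refine Finset.card_image_le.trans ?_
        have : (S.filter fun z => z.1 = p.1).card ≤ (J.erase p.2).card := by
          refine Finset.card_le_card_of_injOn (fun z => z.2) ?_ ?_
          · intro z hz
            rw [mem_coe, mem_filter] at hz
            rw [mem_coe, mem_erase]
            refine ⟨?_, (mem_product.mp (hS hz.1)).2⟩
            intro h
            apply hpS
            have : z = p := Prod.ext hz.2 h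
            rw [← this]
            exact hz.1
          · intro z hz z' hz' h
            rw [mem_coe, mem_filter] at hz hz'
            exact Prod.ext (hz.2.trans hz'.2.symm) h
        rw [Finset.card_erase_of_mem hpJ, hJcard] at this
        exact this
      have hfree : n ≤ (range K \ U).card := by
        have := Finset.le_card_sdiff U (range K)
        rw [card_range] at this
        omega
      obtain ⟨c, hc⟩ := exists_comb n _ hfree (v p)
      have h1 : L v = ∑ k ∈ range K \ U, c k * L (Function.update v p (ell n k)) := by
        rw [← hM, ← hc, Function.update_eq_self]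
      rw [h1]
      refine Finset.sum_eq_zero fun k hk => ?_
      rw [mem_sdiff, mem_range] at hk
      rw [ih (insert p S) ?_ ?_ (Function.update v p (ell n k)) ?_ ?_, mul_zero]
      · exact Finset.insert_subset hpB hS
      · rw [Finset.sdiff_insert, Finset.card_erase_of_mem hp, hcard]
        omega
      · intro j hj
        obtain ⟨k', hk', h⟩ := hv j hj
        refine ⟨k', hk', fun i => ?_⟩
        rw [Function.update_of_ne]
        · exact h i
        · intro hip
          rw [← hip, hJ] at hpJ
          simp only [mem_filter, mem_univ, true_and] at hpJ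
          omega
      · refine ⟨Function.update lab p k, ?_, ?_⟩
        · intro z hz
          by_cases hzp : z = p
          · subst hzp
            rw [Function.update_self, Function.update_self]
            exact ⟨hk.1, rfl⟩
          · rw [Function.update_of_ne hzp, Function.update_of_ne hzp]
            exact hlab1 z ((mem_insert.mp hz).resolve_left hzp)
        · have haux : ∀ z ∈ S, z.1 = p.1 → lab z ≠ k := by
            intro z hz hz1 hzk
            exact hk.2 (mem_image.mpr ⟨z, mem_filter.mpr ⟨hz, hz1⟩, hzk⟩)
          intro z hz z' hz' h1 h2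
          by_cases hzp : z = p
          · by_cases hzp' : z' = p
            · rw [hzp, hzp']
            · rw [hzp, Function.update_self, Function.update_of_ne hzp'] at h2
              exact absurd h2.symm (haux z' ((mem_insert.mp hz').resolve_left hzp')
                (by rw [← h1, hzp]))
          · by_cases hzp' : z' = p
            · rw [hzp', Function.update_self, Function.update_of_ne hzp] at h2
              exact absurd h2 (haux z ((mem_insert.mp hz).resolve_left hzp) (by rw [h1, hzp']))
            · rw [Function.update_of_ne hzp, Function.update_of_ne hzp'] at h2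
              exact hlab2 z ((mem_insert.mp hz).resolve_left hzp) z'
                ((mem_insert.mp hz').resolve_left hzp') h1 h2
  intro v hv
  refine claim _ ∅ (Finset.empty_subset _) rfl v hv ⟨fun _ => 0, ?_, ?_⟩
  · intro z hz
    simp at hz
  · intro z hz
    simp at hz

theorem base (hL : Good L) (K t d : ℕ) (htd : t + d = b) (ha : 1 ≤ a) (hK : 1 ≤ K)
    (hm : K * ((a - 1) * d) ≤ t) : PP L K t := by
  intro v hv
  choose! f hf1 hf2 using hv
  set P : Finset (Fin b) := univ.filter fun j => (j : ℕ) < t with hP
  have hPcard : P.card = t := by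
    have : P.map Fin.valEmbedding = Finset.range t := by
      ext x
      simp only [hP, mem_map, mem_filter, mem_univ, true_and, Fin.valEmbedding_apply, mem_range]
      constructor
      · rintro ⟨j, h, rfl⟩
        exact h
      · intro h
        exact ⟨⟨x, by omega⟩, h, rfl⟩
    rw [← Finset.card_map Fin.valEmbedding, this, card_range]
  have hQcard : (univ.filter fun j : Fin b => ¬ (j : ℕ) < t).card = d := by
    have h1 := Finset.card_filter_add_card_filter_not (s := (univ : Finset (Fin b)))
      (fun j : Fin b => (j : ℕ) < t)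
    rw [← hP, hPcard, card_univ, Fintype.card_fin] at h1
    omega
  obtain ⟨k0, -, hk0⟩ : ∃ k0 ∈ range K, (a - 1) * d ≤ (P.filter fun j => f j = k0).card := by
    refine Finset.exists_le_card_fiber_of_mul_le_card_of_maps_to (f := f) ?_ ?_ ?_
    · intro j hj
      rw [hP, mem_filter] at hj
      exact mem_range.mpr (hf1 j hj.2)
    · exact ⟨0, mem_range.mpr hK⟩
    · rw [card_range, hPcard]
      exact hm
  set Y : Finset (Fin b) := (P.filter fun j => f j = k0) ∪
    (univ.filter fun j : Fin b => ¬ (j : ℕ) < t) with hY
  have hYcard : a * d ≤ Y.card := by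
    rw [hY, Finset.card_union_of_disjoint, hQcard]
    · have : a * d = (a - 1) * d + d := by
        obtain ⟨a', rfl⟩ : ∃ a', a = a' + 1 := ⟨a - 1, by omega⟩
        simp only [Nat.add_sub_cancel]
        ring
      omega
    · rw [Finset.disjoint_left]
      intro j hj1 hj2
      rw [mem_filter, hP, mem_filter] at hj1
      rw [mem_filter] at hj2
      exact hj2.2 hj1.1.2
  refine vanish hL (fun j => if (j : ℕ) < t then ell n (f j) else ell n k0) (ell n k0) Y ?_
    (univ ×ˢ (univ.filter fun j : Fin b => ¬ (j : ℕ) < t)) ?_ ?_ v ?_
  · intro j hj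
    rw [hY, mem_union] at hj
    rcases hj with hj | hj
    · rw [mem_filter] at hj
      split_ifs
      · rw [hj.2]
      · rfl
    · rw [mem_filter] at hj
      rw [if_neg hj.2]
  · intro z hz
    rw [hY]
    exact mem_union_right _ (mem_product.mp hz).2
  · rw [card_product, hQcard, card_univ, Fintype.card_fin]
    exact hYcard
  · intro z hz
    have hz' : (z.2 : ℕ) < t := by
      by_contra h
      apply hz
      exact mem_product.mpr ⟨mem_univ _, mem_filter.mpr ⟨mem_univ _, h⟩⟩
    rw [if_pos hz']
    exact hf2 z.2 hz' z.1

/-- everything vanishes. -/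
theorem all_vanish (hL : Good L) (hM : Multi L) (N : ℕ) (hn : n = N + 1) (ha : 1 ≤ a)
    (hb : (a - 1) * N + (a * N + 1) * ((a - 1) * ((a - 1) * N)) ≤ b) : ∀ v, L v = 0 := by
  obtain ⟨t0, ht0⟩ : ∃ t0, t0 + (a - 1) * N = b := ⟨b - (a - 1) * N, by omega⟩
  have hK : a * N + 1 = (a - 1) * N + N + 1 := by
    obtain ⟨a', rfl⟩ : ∃ a', a = a' + 1 := ⟨a - 1, by omega⟩
    simp only [Nat.add_sub_cancel]
    ring
  have hbase : PP L (a * N + 1) t0 :=
    base hL (a * N + 1) t0 ((a - 1) * N) ht0 ha (by omega) (by omega)
  have hstep : ∀ k, ∀ t, t + k = t0 → PP L (a * N + 1) t := by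
    intro k
    induction k with
    | zero =>
      intro t ht
      have : t = t0 := by omega
      rw [this]
      exact hbase
    | succ k ih =>
      intro t ht
      refine step hL hM (a * N + 1) ((a - 1) * N + 1) t (by omega) (by omega) ?_ (by omega)
        (ih (t + 1) (by omega))
      have : a * N + 1 - ((a - 1) * N + 1) = N := by omega
      rw [this]
      omega
  intro v
  exact hstep t0 0 (by omega) v (fun j hj => absurd hj (Nat.not_lt_zero _))

end expand

end Vale.Agent.H17.Foulkes
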