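import Vale.Agent.H17.FoulkesExpand

/-!
# Injectivity of the Foulkes–Howe map (helper file for P181)
-/

namespace Vale.Agent.H17.Foulkes

open Finset Classical

section
variable {a b n : ℕ}

/-- pairing of a tensor with an array of (co)vectors. -/
noncomputable def Lf (T : Tens (Fin a × Fin b) n) (v : Fin a × Fin b → (Fin n → ℂ)) : ℂ :=
  ∑ N : Fin a × Fin b → Fin n, T N * ∏ z, v z (N z)

theorem Lf_relabel (T : Tens (Fin a × Fin b) n) (v : Fin a × Fin b → (Fin n → ℂ))
    (e : Equiv.Perm (Fin a × Fin b)) :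
    Lf T (fun z => v (e z)) = ∑ N : Fin a × Fin b → Fin n, T (fun z => N (e z)) *
      ∏ z, v z (N z) := by
  unfold Lf
  refine Fintype.sum_equiv (Equiv.arrowCongr e (Equiv.refl _)) _ _ ?_
  intro N
  have h1 : (fun z => (Equiv.arrowCongr e (Equiv.refl (Fin n))) N (e z)) = N := by
    funext z
    simp [Equiv.arrowCongr]
  have h2 : ∏ z, v z ((Equiv.arrowCongr e (Equiv.refl (Fin n))) N z) =
      ∏ z, v (e z) (N z) := by
    rw [← Equiv.prod_comp e]
    refine Finset.prod_congr rfl fun z _ => ?_
    simp [Equiv.arrowCongr]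
  rw [h1, h2]

theorem Lf_good (T : Tens (Fin a × Fin b) n) (hT : T ∈ SymSym a b n)
    (hΨ : Psi a b n T = 0) : Good (Lf T) where
  row ρ v := by
    rw [Lf_relabel]
    unfold Lf
    refine Finset.sum_congr rfl fun N _ => ?_
    congr 1
    exact hT.1 ρ N
  rows π v := by
    rw [Lf_relabel]
    unfold Lf
    refine Finset.sum_congr rfl fun N _ => ?_
    congr 1
    exact hT.2 π N
  col v := by
    simp only [Lf_relabel]
    rw [Finset.sum_comm]
    refine Finset.sum_eq_zero fun N _ => ?_
    rw [← Finset.sum_mul]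
    have := congrFun hΨ (fun w => N (w.2, w.1))
    rw [Psi_apply] at this
    have h2 : ∑ σ : Fin b → Equiv.Perm (Fin a), T (fun z => N (colPerm σ z)) = 0 := this
    rw [h2, zero_mul]

theorem Lf_multi (T : Tens (Fin a × Fin b) n) : Multi (Lf T) := by
  intro v p S c w
  have h : ∀ (x : Fin n → ℂ) (N : Fin a × Fin b → Fin n),
      ∏ z, (Function.update v p x) z (N z) = x (N p) * ∏ z ∈ univ.erase p, v z (N z) := by
    intro x N
    rw [← Finset.mul_prod_erase univ _ (mem_univ p), Function.update_self]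
    congr 1
    refine Finset.prod_congr rfl fun z hz => ?_
    rw [Function.update_of_ne (Finset.ne_of_mem_erase hz)]
  unfold Lf
  simp only [h, Finset.mul_sum]
  rw [Finset.sum_comm]
  refine Finset.sum_congr rfl fun N _ => ?_
  simp only [Finset.sum_apply, Pi.smul_apply, smul_eq_mul, Finset.sum_mul, Finset.mul_sum]
  refine Finset.sum_congr rfl fun k _ => ?_
  ring

theorem Lf_single (T : Tens (Fin a × Fin b) n) (N0 : Fin a × Fin b → Fin n) :
    Lf T (fun z => Pi.single (N0 z) 1) = T N0 := by
  unfold Lf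
  rw [Finset.sum_eq_single N0]
  · simp
  · intro N _ hN
    have : ∃ z, N z ≠ N0 z := by
      by_contra h
      push Not at h
      exact hN (funext h)
    obtain ⟨z, hz⟩ := this
    rw [Finset.prod_eq_zero (mem_univ z), mul_zero]
    exact Pi.single_eq_of_ne hz 1
  · intro h
    exact absurd (mem_univ _) h

/-- injectivity beyond the explicit bound depending on `a` and `n`. -/
theorem inj_dim (N : ℕ) (hn : n = N + 1) (ha : 1 ≤ a)
    (hb : (a - 1) * N + (a * N + 1) * ((a - 1) * ((a - 1) * N)) ≤ b)
    (T : Tens (Fin a × Fin b) n) (hT : T ∈ SymSym a b n) (hΨ : Psi a b n T = 0) : T = 0 := by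
  funext N0
  rw [← Lf_single T N0]
  exact all_vanish (Lf_good T hT hΨ) (Lf_multi T) N hn ha hb _

/-- matching of equal fibre cardinalities. -/
theorem exists_perm_of_fibers {α β : Type} [Fintype α] [DecidableEq β] (f g : α → β)
    (h : ∀ y, (univ.filter fun x => f x = y).card = (univ.filter fun x => g x = y).card) :
    ∃ ρ : Equiv.Perm α, ∀ x, g (ρ x) = f x := by
  have h' : ∀ y, Fintype.card {x // f x = y} = Fintype.card {x // g x = y} := by
    intro y
    rw [Fintype.card_subtype, Fintype.card_subtype]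
    exact h y
  refine ⟨(Equiv.sigmaFiberEquiv f).symm.trans ((Equiv.sigmaCongrRight
    fun y => Fintype.equivOfCardEq (h' y)).trans (Equiv.sigmaFiberEquiv g)), ?_⟩
  intro x
  simp only [Equiv.trans_apply]
  have : ∀ s : (y : β) × {x // g x = y}, g (Equiv.sigmaFiberEquiv g s) = s.1 := by
    rintro ⟨y, x, hx⟩
    exact hx
  rw [this]
  rfl

/-- reduction from `ℂ^n` to `ℂ^a`. -/
theorem eq_zero_of_act (T : Tens (Fin a × Fin b) n) (hT : T ∈ SymSym a b n)
    (h : ∀ u : Matrix (Fin a) (Fin n) ℂ, act u T = 0) : T = 0 := by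
  funext N0
  let e : (Fin a × Fin b → Fin n) → (Fin a × Fin n →₀ ℕ) := fun N =>
    ∑ z, Finsupp.single (z.1, N z) 1
  let p : MvPolynomial (Fin a × Fin n) ℂ := ∑ N : Fin a × Fin b → Fin n,
    MvPolynomial.monomial (e N) (T N)
  have hp : p = 0 := by
    apply MvPolynomial.funext
    intro x
    have h1 := congrFun (h (fun i s => x (i, s))) (fun z => z.1)
    simp only [act, Pi.zero_apply] at h1
    rw [map_zero, ← h1]
    simp only [p, map_sum]
    refine Finset.sum_congr rfl fun N _ => ?_
    rw [MvPolynomial.eval_monomial, mul_comm]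
    congr 1
    simp only [e]
    rw [← Finsupp.prod_finsetSum_index (by simp) (fun _ _ _ => pow_add _ _ _)]
    refine Finset.prod_congr rfl fun z _ => ?_
    rw [Finsupp.prod_single_index (by simp), pow_one]
  have hcoef : MvPolynomial.coeff (e N0) p = 0 := by rw [hp, MvPolynomial.coeff_zero]
  simp only [p, MvPolynomial.coeff_sum, MvPolynomial.coeff_monomial] at hcoef
  have heq : ∀ N, e N = e N0 → T N = T N0 := by
    intro N hN
    have hfib : ∀ i : Fin a, ∃ ρ : Equiv.Perm (Fin b), ∀ j, N0 (i, ρ j) = N (i, j) := by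
      intro i
      refine exists_perm_of_fibers (fun j => N (i, j)) (fun j => N0 (i, j)) ?_
      intro s
      have hcount : ∀ M : Fin a × Fin b → Fin n,
          e M (i, s) = (univ.filter fun j => M (i, j) = s).card := by
        intro M
        simp only [e, Finsupp.finsetSum_apply, Finsupp.single_apply, Prod.mk.injEq]
        rw [Fintype.sum_prod_type]
        rw [Finset.sum_eq_single i]
        · simp
        · intro i' _ hi'
          refine Finset.sum_eq_zero fun j _ => ?_
          rw [if_neg]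
          exact fun hh => hi' hh.1
        · intro hh
          exact absurd (mem_univ _) hh
      rw [← hcount, ← hcount, hN]
    choose ρ hρ using hfib
    rw [← hT.1 ρ N0]
    congr 1
    funext z
    exact (hρ z.1 z.2).symm
  have hsum : ∑ N, (if e N = e N0 then T N else 0) =
      ((univ.filter fun N => e N = e N0).card : ℂ) * T N0 := by
    rw [← Finset.sum_filter, Finset.sum_congr rfl (g := fun _ => T N0)]
    · rw [Finset.sum_const, nsmul_eq_mul]
    · intro N hN
      exact heq N (mem_filter.mp hN).2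
  rw [hsum] at hcoef
  refine (mul_eq_zero.mp hcoef).resolve_left ?_
  exact Nat.cast_ne_zero.mpr (Finset.card_ne_zero_of_mem (mem_filter.mpr ⟨mem_univ N0, rfl⟩))

/-- **Injectivity for all `n`.** -/
theorem inj_all (ha : 1 ≤ a)
    (hb : (a - 1) * (a - 1) + (a * (a - 1) + 1) * ((a - 1) * ((a - 1) * (a - 1))) ≤ b)
    (T : Tens (Fin a × Fin b) n) (hT : T ∈ SymSym a b n) (hΨ : Psi a b n T = 0) : T = 0 := by
  refine eq_zero_of_act T hT fun u => ?_
  refine inj_dim (a - 1) (by omega) ha hb (act u T) (act_mem u hT) ?_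
  rw [Psi_act, hΨ]
  funext N
  simp [act]

end

theorem bound_le (a : ℕ) :
    (a - 1) * (a - 1) + (a * (a - 1) + 1) * ((a - 1) * ((a - 1) * (a - 1))) ≤ a ^ 5 := by
  rcases Nat.eq_zero_or_pos a with rfl | ha
  · simp
  obtain ⟨c, rfl⟩ : ∃ c, a = c + 1 := ⟨a - 1, by omega⟩
  simp only [Nat.add_sub_cancel]
  have : (c + 1) ^ 5 = c * c + ((c + 1) * c + 1) * (c * (c * c)) +
      (4 * c ^ 4 + 9 * c ^ 3 + 9 * c ^ 2 + 5 * c + 1) := by ring
  omega

/-- the case of few entries different from one basis vector. -/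
theorem inj_weight {a b n : ℕ} (T : Tens (Fin a × Fin b) n) (hT : T ∈ SymSym a b n)
    (s0 : Fin n) (hs : ∀ N, T N ≠ 0 → (univ.filter fun z => N z ≠ s0).card ≤ b)
    (hΨ : Psi a b n T = 0) : T = 0 := by
  funext N0
  by_contra hne
  have h := hs N0 hne
  apply hne
  rw [← Lf_single T N0]
  refine vanish (Lf_good T hT hΨ) (fun _ => Pi.single s0 1) (Pi.single s0 1) univ
    (fun _ _ => rfl) (univ.filter fun z => N0 z ≠ s0) (fun _ _ => mem_univ _) ?_ _ ?_
  · rw [card_univ, Fintype.card_fin]
    exact h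
  · intro z hz
    have : N0 z = s0 := by
      by_contra hc
      exact hz (mem_filter.mpr ⟨mem_univ _, hc⟩)
    rw [this]

end Vale.Agent.H17.Foulkes
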