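import Vale.Agent.H17.FoulkesCubic

/-!
# Propagation of injectivity for a fixed space (helper file for P181)
-/

namespace Vale.Agent.H17.Foulkes

open Finset Classical

section
variable {a b n : ℕ}

theorem eq_zero_of_basis {q : ℕ} (g : MultilinearMap ℂ (fun _ : Fin a × Fin q => (Fin n → ℂ)) ℂ)
    (h : ∀ N : Fin a × Fin q → Fin n, g (fun z => Pi.single (N z) 1) = 0) : ∀ w, g w = 0 := by
  intro w
  have h1 : w = fun z => ∑ s : Fin n, (w z s) • (Pi.single s 1 : Fin n → ℂ) := by
    funext z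
    funext s
    rw [Finset.sum_apply]
    simp [Pi.single_apply]
  rw [h1, g.map_sum (fun z s => (w z s) • (Pi.single s 1 : Fin n → ℂ))]
  refine Finset.sum_eq_zero fun N _ => ?_
  rw [g.map_smul_univ (fun z => w z (N z)) (fun z => (Pi.single (N z) 1 : Fin n → ℂ)), h,
    smul_zero]

theorem one_add (b : ℕ) : 1 + b = b + 1 := Nat.add_comm 1 b

/-- contraction with `y` in the whole first column. -/
noncomputable def contr (T : Tens (Fin a × Fin (b + 1)) n) (y : Fin n → ℂ) :
    Tens (Fin a × Fin b) n :=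
  fun N => LMglue T 1 b (one_add b) (fun _ => y) (fun z => Pi.single (N z) 1)

theorem contr_mem (T : Tens (Fin a × Fin (b + 1)) n) (hT : T ∈ SymSym a (b + 1) n)
    (y : Fin n → ℂ) : contr T y ∈ SymSym a b n := by
  refine ⟨fun ρ N => ?_, fun π N => ?_⟩
  · exact LMglue_rowSym T hT 1 b (one_add b) (fun _ => y) (rowEquiv ρ) (fun z => rfl)
      (fun z => Pi.single (N z) 1)
  · have h1 : LM T (fun z => glue 1 b (one_add b) (fun _ => y) (fun z => Pi.single (N z) 1)
        (rowsEquiv π z)) = LM T (glue 1 b (one_add b) (fun _ => y)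
        (fun z => (Pi.single (N z) 1 : Fin n → ℂ))) := by
      change Lf T _ = Lf T _
      rw [Lf_relabel]
      unfold Lf
      refine Finset.sum_congr rfl fun N _ => ?_
      congr 1
      exact hT.2 π N
    exact h1

theorem psi_contr (T : Tens (Fin a × Fin (b + 1)) n) (hT : T ∈ SymSym a (b + 1) n)
    (hΨ : Psi a (b + 1) n T = 0) (y : Fin n → ℂ) : Psi a b n (contr T y) = 0 := by
  funext M
  rw [Psi_apply, Pi.zero_apply]
  have hcol := (Lf_good T hT hΨ).col
    (glue 1 b (one_add b) (fun _ => y) (fun z => Pi.single (M (z.2, z.1)) 1))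
  rw [← Equiv.sum_comp (Fin.consEquiv fun _ : Fin (b + 1) => Equiv.Perm (Fin a)),
    Fintype.sum_prod_type] at hcol
  have h1 : ∀ (σ0 : Equiv.Perm (Fin a)) (σ : Fin b → Equiv.Perm (Fin a)),
      Lf T (fun z => glue 1 b (one_add b) (fun _ => y)
        (fun z => (Pi.single (M (z.2, z.1)) 1 : Fin n → ℂ))
        (colPerm (Fin.consEquiv (fun _ : Fin (b + 1) => Equiv.Perm (Fin a)) (σ0, σ)) z)) =
      contr T y (fun z => M (z.2, σ z.2 z.1)) := by
    intro σ0 σ
    change Lf T _ = Lf T _
    congr 1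
    funext z
    unfold glue
    by_cases hz : 1 ≤ (z.2 : ℕ)
    · have h2 : 1 ≤ ((colPerm (Fin.consEquiv (fun _ : Fin (b + 1) => Equiv.Perm (Fin a))
          (σ0, σ)) z).2 : ℕ) := hz
      rw [dif_pos h2, dif_pos hz]
      obtain ⟨c, hc⟩ : ∃ c : Fin b, z.2 = Fin.succ c := by
        refine ⟨⟨(z.2 : ℕ) - 1, by have := z.2.2; omega⟩, Fin.ext ?_⟩
        change (z.2 : ℕ) = (z.2 : ℕ) - 1 + 1
        omega
      have h3 : (⟨(z.2 : ℕ) - 1, by have := z.2.2; omega⟩ : Fin b) = c := by
        apply Fin.ext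
        change (z.2 : ℕ) - 1 = (c : ℕ)
        rw [hc]
        simp
      have h4 : (colPerm (Fin.consEquiv (fun _ : Fin (b + 1) => Equiv.Perm (Fin a))
          (σ0, σ)) z).1 = σ c z.1 := by
        change (Fin.cons σ0 σ : Fin (b + 1) → Equiv.Perm (Fin a)) z.2 z.1 = _
        rw [hc, Fin.cons_succ]
      simp only [h4]
      have h5 : (⟨((colPerm (Fin.consEquiv (fun _ : Fin (b + 1) => Equiv.Perm (Fin a))
          (σ0, σ)) z).2 : ℕ) - 1, by have := z.2.2; have := h2; omega⟩ : Fin b) = c := h3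
      rw [h5, h3]
    · have h2 : ¬ 1 ≤ ((colPerm (Fin.consEquiv (fun _ : Fin (b + 1) => Equiv.Perm (Fin a))
          (σ0, σ)) z).2 : ℕ) := hz
      rw [dif_neg h2, dif_neg hz]
  simp only [h1, Finset.sum_const, nsmul_eq_mul] at hcol
  refine (mul_eq_zero.mp hcol).resolve_left ?_
  exact Nat.cast_ne_zero.mpr (Finset.card_ne_zero_of_mem (mem_univ (Equiv.refl (Fin a))))

/-- **Propagation** for a fixed space. -/
theorem prop_step (hab : a ≤ b + 1) (h : PsiInjective a b n) : PsiInjective a (b + 1) n := by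
  intro T hT hΨ
  have hT' : T ∈ SymSym a (b + 1) n := hT
  have hcontr : ∀ y : Fin n → ℂ, ∀ w, LMglue T 1 b (one_add b) (fun _ => y) w = 0 := by
    intro y
    apply eq_zero_of_basis
    intro N
    have := h (contr T y) (contr_mem T hT' y) (psi_contr T hT' hΨ y)
    exact congrFun this N
  have hall := dm (LM T) (LM_rowSym T hT') 1 (by omega) (fun y v hv => by
    have h1 := hcontr y (fun z => v (z.1, Fin.succ z.2))
    rw [LMglue_apply] at h1
    rw [← h1]
    congr 1
    funext z
    unfold glue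
    by_cases hz : 1 ≤ (z.2 : ℕ)
    · rw [dif_pos hz]
      congr 1
      refine Prod.ext rfl (Fin.ext ?_)
      change (z.2 : ℕ) = (z.2 : ℕ) - 1 + 1
      omega
    · rw [dif_neg hz]
      exact hv z (by omega))
  funext N0
  rw [← Lf_single T N0]
  exact hall _

theorem propagation {b0 : ℕ} (hab : a ≤ b0 + 1) (h : PsiInjective a b0 n) :
    ∀ b, b0 ≤ b → PsiInjective a b n := by
  intro b hb
  induction b, hb using Nat.le_induction with
  | base => exact h
  | succ b hb ih => exact prop_step (by omega) ih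

end

end Vale.Agent.H17.Foulkes
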