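import Vale.Agent.H17.FoulkesBasic
import Vale.Agent.H17.FoulkesCore

/-!
# The vanishing theorem for nearly constant arrays (helper file for P181)
-/

namespace Vale.Agent.H17.Foulkes

open Finset Classical

/-- permuting inside the columns. -/
def colPerm {a b : ℕ} (σ : Fin b → Equiv.Perm (Fin a)) : Equiv.Perm (Fin a × Fin b) where
  toFun z := (σ z.2 z.1, z.2)
  invFun w := ((σ w.2).symm w.1, w.2)
  left_inv z := by simp
  right_inv w := by simp

/-- The properties of the function `L` on arrays of vectors that we use. -/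
structure Good {a b : ℕ} {E : Type} (L : (Fin a × Fin b → E) → ℂ) : Prop where
  row : ∀ (ρ : Fin a → Equiv.Perm (Fin b)) (v : Fin a × Fin b → E),
    L (fun z => v (rowEquiv ρ z)) = L v
  rows : ∀ (π : Equiv.Perm (Fin a)) (v : Fin a × Fin b → E),
    L (fun z => v (rowsEquiv π z)) = L v
  col : ∀ (v : Fin a × Fin b → E),
    ∑ σ : Fin b → Equiv.Perm (Fin a), L (fun z => v (colPerm σ z)) = 0

section place
variable {a b : ℕ} {E : Type} {R : Type}

/-- place the vectors `u x` in the slots `θ x`; slot `w` carries `v0 w.2` otherwise. -/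
noncomputable def place (v0 : Fin b → E) (u : R → E) (θ : R → Fin a × Fin b) :
    Fin a × Fin b → E :=
  Function.extend θ u (fun w => v0 w.2)

theorem place_comp (v0 : Fin b → E) (u : R → E) (θ θ' : R → Fin a × Fin b)
    (hθ : Function.Injective θ) (hθ' : Function.Injective θ') (c : Equiv.Perm (Fin a × Fin b))
    (hc : ∀ x, c (θ' x) = θ x) (hv0 : ∀ w, v0 (c w).2 = v0 w.2) :
    (fun w => place v0 u θ (c w)) = place v0 u θ' := by
  funext w
  unfold place
  by_cases hw : ∃ x, θ' x = w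
  · obtain ⟨x, rfl⟩ := hw
    rw [hθ'.extend_apply, hc, hθ.extend_apply]
  · rw [Function.extend_apply' _ _ _ hw, Function.extend_apply', hv0]
    rintro ⟨x, hx⟩
    apply hw
    refine ⟨x, ?_⟩
    apply c.injective
    rw [hc, hx]

end place

/-- extending a matching of two injective families to a permutation supported on a finset. -/
theorem exists_perm_extending {R α : Type} [Fintype α] [DecidableEq α] (p : R → Prop)
    (ψ ψ' : R → α) (Y : Finset α)
    (h1 : ∀ x, ψ x ∈ Y) (h2 : ∀ x, ψ' x ∈ Y)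
    (hi1 : ∀ x y, p x → p y → ψ x = ψ y → x = y) (hi2 : ∀ x y, p x → p y → ψ' x = ψ' y → x = y) :
    ∃ ρ : Equiv.Perm α, (∀ x, p x → ρ (ψ x) = ψ' x) ∧ (∀ y ∉ Y, ρ y = y) ∧
      ∀ y ∈ Y, ρ y ∈ Y := by
  let f : {x // p x} → {y // y ∈ Y} := fun x => ⟨ψ x.1, h1 x.1⟩
  let g : {x // p x} → {y // y ∈ Y} := fun x => ⟨ψ' x.1, h2 x.1⟩
  have hf : Function.Injective f := by
    intro x y hxy
    exact Subtype.ext (hi1 _ _ x.2 y.2 (Subtype.ext_iff.mp hxy))
  have hg : Function.Injective g := by
    intro x y hxy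
    exact Subtype.ext (hi2 _ _ x.2 y.2 (Subtype.ext_iff.mp hxy))
  let e0 : {y // y ∈ Set.range f} ≃ {y // y ∈ Set.range g} :=
    (Equiv.ofInjective f hf).symm.trans (Equiv.ofInjective g hg)
  let e : Equiv.Perm {y // y ∈ Y} := e0.extendSubtype
  have he : ∀ x, e (f x) = g x := by
    intro x
    have := e0.extendSubtype_apply_of_mem (f x) ⟨x, rfl⟩
    change e (f x) = _ at this
    rw [this]
    simp only [e0, Equiv.trans_apply]
    have h3 : (Equiv.ofInjective f hf).symm ⟨f x, ⟨x, rfl⟩⟩ = x := by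
      rw [Equiv.symm_apply_eq]
      rfl
    rw [h3]
    rfl
  refine ⟨Equiv.Perm.ofSubtype e, ?_, ?_, ?_⟩
  · intro x hx
    rw [Equiv.Perm.ofSubtype_apply_of_mem e (h1 x)]
    have := he ⟨x, hx⟩
    exact Subtype.ext_iff.mp this
  · intro y hy
    exact Equiv.Perm.ofSubtype_apply_of_not_mem e hy
  · intro y hy
    rw [Equiv.Perm.ofSubtype_apply_of_mem e hy]
    exact (e ⟨y, hy⟩).2

section T1
variable {a b : ℕ} {E : Type} {L : (Fin a × Fin b → E) → ℂ}

theorem place_rows (hL : Good L) {R : Type} (v0 : Fin b → E) (u : R → E) (φ : R → Fin a)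
    (ψ : R → Fin b) (hinj : Function.Injective fun x => (φ x, ψ x)) (π : Equiv.Perm (Fin a)) :
    L (place v0 u (fun x => (π (φ x), ψ x))) = L (place v0 u (fun x => (φ x, ψ x))) := by
  have h := hL.rows π (place v0 u (fun x => (π (φ x), ψ x)))
  rw [place_comp v0 u (fun x => (π (φ x), ψ x)) (fun x => (φ x, ψ x)) ?_ hinj (rowsEquiv π)
    (fun x => rfl) (fun w => rfl)] at h
  · exact h.symm
  · intro x y hxy
    simp only [Prod.mk.injEq, EmbeddingLike.apply_eq_iff_eq] at hxy
    exact hinj (Prod.ext hxy.1 hxy.2)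

theorem place_row (hL : Good L) {R : Type} (v0 : Fin b → E) (ℓ : E) (Y : Finset (Fin b))
    (hℓ : ∀ j ∈ Y, v0 j = ℓ) (u : R → E) (φ : R → Fin a)
    (ψ ψ' : R → Fin b) (hinj : Function.Injective fun x => (φ x, ψ x))
    (hinj' : Function.Injective fun x => (φ x, ψ' x)) (h1 : ∀ x, ψ x ∈ Y) (h2 : ∀ x, ψ' x ∈ Y) :
    L (place v0 u (fun x => (φ x, ψ x))) = L (place v0 u (fun x => (φ x, ψ' x))) := by
  have hex : ∀ i : Fin a, ∃ ρ : Equiv.Perm (Fin b), (∀ x, φ x = i → ρ (ψ x) = ψ' x) ∧
      (∀ y ∉ Y, ρ y = y) ∧ ∀ y ∈ Y, ρ y ∈ Y := by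
    intro i
    refine exists_perm_extending (fun x => φ x = i) ψ ψ' Y h1 h2 ?_ ?_
    · intro x y hx hy hxy
      exact hinj (Prod.ext (hx.trans hy.symm) hxy)
    · intro x y hx hy hxy
      exact hinj' (Prod.ext (hx.trans hy.symm) hxy)
  choose ρ hρ1 hρ2 hρ3 using hex
  have h := hL.row ρ (place v0 u (fun x => (φ x, ψ' x)))
  rw [place_comp v0 u (fun x => (φ x, ψ' x)) (fun x => (φ x, ψ x)) hinj' hinj (rowEquiv ρ)
    ?_ ?_] at h
  · exact h
  · intro x
    change (φ x, ρ (φ x) (ψ x)) = (φ x, ψ' x)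
    rw [hρ1 (φ x) x rfl]
  · intro w
    change v0 (ρ w.1 w.2) = v0 w.2
    by_cases hw : w.2 ∈ Y
    · rw [hℓ _ hw, hℓ _ (hρ3 w.1 _ hw)]
    · rw [hρ2 w.1 _ hw]

theorem place_col (hL : Good L) {R : Type} [Fintype R] (v0 : Fin b → E) (u : R → E)
    (ψ : R → Fin b) :
    ∑ φ : R → Fin a, (if Function.Injective (fun x => (φ x, ψ x)) then
      L (place v0 u (fun x => (φ x, ψ x))) else 0) = 0 := by
  set G : ℂ := ∑ φ : R → Fin a, (if Function.Injective (fun x => (φ x, ψ x)) then
      L (place v0 u (fun x => (φ x, ψ x))) else 0) with hG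
  have hinj : ∀ (σ : Fin b → Equiv.Perm (Fin a)) (φ : R → Fin a),
      (Function.Injective (fun x => ((σ (ψ x)).symm (φ x), ψ x)) ↔
        Function.Injective (fun x => (φ x, ψ x))) := by
    intro σ φ
    constructor
    · intro h x y hxy
      simp only [Prod.mk.injEq] at hxy
      apply h
      simp only [Prod.mk.injEq]
      rw [hxy.1, hxy.2]
      exact ⟨rfl, rfl⟩
    · intro h x y hxy
      simp only [Prod.mk.injEq] at hxy
      apply h
      simp only [Prod.mk.injEq]
      have h2 := hxy.1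
      rw [hxy.2] at h2
      exact ⟨(σ (ψ y)).symm.injective h2, hxy.2⟩
  have key : ∑ φ : R → Fin a, ∑ σ : Fin b → Equiv.Perm (Fin a),
      (if Function.Injective (fun x => (φ x, ψ x)) then
        L (place v0 u (fun x => ((σ (ψ x)).symm (φ x), ψ x))) else 0) = 0 := by
    refine Finset.sum_eq_zero fun φ _ => ?_
    by_cases h : Function.Injective (fun x => (φ x, ψ x))
    · simp only [h, if_true]
      rw [← hL.col (place v0 u (fun x => (φ x, ψ x)))]
      refine Finset.sum_congr rfl fun σ _ => ?_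
      rw [place_comp v0 u (fun x => (φ x, ψ x)) (fun x => ((σ (ψ x)).symm (φ x), ψ x)) h
        ((hinj σ φ).mpr h) (colPerm σ) ?_ ?_]
      · intro x
        simp [colPerm]
      · intro w
        rfl
    · simp [h]
  rw [Finset.sum_comm] at key
  have h2 : ∀ σ : Fin b → Equiv.Perm (Fin a), ∑ φ : R → Fin a,
      (if Function.Injective (fun x => (φ x, ψ x)) then
        L (place v0 u (fun x => ((σ (ψ x)).symm (φ x), ψ x))) else 0) = G := by
    intro σ
    rw [hG]
    refine Fintype.sum_equiv (Equiv.piCongrRight fun x => (σ (ψ x)).symm) _ _ ?_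
    intro φ
    simp only [Equiv.piCongrRight_apply, Pi.map_apply]
    rw [if_congr (hinj σ φ) rfl rfl]
  simp only [h2, Finset.sum_const, nsmul_eq_mul] at key
  refine (mul_eq_zero.mp key).resolve_left ?_
  exact Nat.cast_ne_zero.mpr (Finset.card_ne_zero_of_mem (mem_univ (fun _ => Equiv.refl _)))

/-- **Vanishing theorem.** -/
theorem vanish (hL : Good L) (v0 : Fin b → E) (ℓ : E) (Y : Finset (Fin b))
    (hℓ : ∀ j ∈ Y, v0 j = ℓ) (R : Finset (Fin a × Fin b)) (hR : ∀ z ∈ R, z.2 ∈ Y)
    (hcard : R.card ≤ Y.card) (v : Fin a × Fin b → E) (hv : ∀ z ∉ R, v z = v0 z.2) :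
    L v = 0 := by
  -- an injection R → Y
  obtain ⟨ι, hι⟩ : ∃ ι : {z // z ∈ R} → Fin b, Function.Injective ι ∧ ∀ x, ι x ∈ Y := by
    have : Fintype.card {z // z ∈ R} ≤ Fintype.card {y // y ∈ Y} := by
      rw [Fintype.card_coe, Fintype.card_coe]
      exact hcard
    obtain ⟨f⟩ := Function.Embedding.nonempty_of_card_le this
    refine ⟨fun x => (f x).1, ?_, fun x => (f x).2⟩
    intro x y hxy
    exact f.injective (Subtype.ext hxy)
  set u : {z // z ∈ R} → E := fun x => v x.1 with hu
  set τ : ({z // z ∈ R} → Fin a) → ℂ := fun φ => L (place v0 u (fun x => (φ x, ι x))) with hτ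
  have hιinj : ∀ φ : {z // z ∈ R} → Fin a, Function.Injective (fun x => (φ x, ι x)) := by
    intro φ x y hxy
    simp only [Prod.mk.injEq] at hxy
    exact hι.1 hxy.2
  have hcore : ∀ φ, τ φ = 0 := by
    refine core τ ?_ ?_
    · intro π φ
      exact place_rows hL v0 u φ ι (hιinj φ) π
    · intro χ
      -- realise χ by ψ
      obtain ⟨ψ, hψY, hψ⟩ : ∃ ψ : {z // z ∈ R} → Fin b, (∀ x, ψ x ∈ Y) ∧
          ∀ x y, χ x = χ y ↔ ψ x = ψ y := by
        rcases isEmpty_or_nonempty {z // z ∈ R} with he | hne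
        · exact ⟨ι, hι.2, fun x => he.elim x⟩
        refine ⟨fun x => ι (Function.invFun χ (χ x)), fun x => hι.2 _, ?_⟩
        intro x y
        constructor
        · intro h
          change ι _ = ι _
          rw [h]
        · intro h
          have h1 := hι.1 h
          have hx : χ (Function.invFun χ (χ x)) = χ x := Function.invFun_eq ⟨x, rfl⟩
          have hy : χ (Function.invFun χ (χ y)) = χ y := Function.invFun_eq ⟨y, rfl⟩
          rw [← hx, h1, hy]
      refine Eq.trans ?_ (place_col hL v0 u ψ)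
      refine Finset.sum_congr rfl fun φ _ => ?_
      have hiff : (∀ x y, χ x = χ y → φ x = φ y → x = y) ↔
          Function.Injective (fun x => (φ x, ψ x)) := by
        constructor
        · intro h x y hxy
          simp only [Prod.mk.injEq] at hxy
          exact h x y ((hψ x y).mpr hxy.2) hxy.1
        · intro h x y h1 h2
          exact h (Prod.ext h2 ((hψ x y).mp h1))
      by_cases hc : Function.Injective (fun x => (φ x, ψ x))
      · rw [if_pos (hiff.mpr hc), if_pos hc, hτ]
        exact place_row hL v0 ℓ Y hℓ u φ ι ψ (hιinj φ) hc hι.2 hψY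
      · rw [if_neg (fun h => hc (hiff.mp h)), if_neg hc]
  have hinj0 : Function.Injective (fun x : {z // z ∈ R} => (x.1.1, x.1.2)) := by
    intro x y hxy
    exact Subtype.ext hxy
  have h1 : v = place v0 u (fun x : {z // z ∈ R} => (x.1.1, x.1.2)) := by
    funext w
    unfold place
    by_cases hw : w ∈ R
    · exact (hinj0.extend_apply u (fun w => v0 w.2) ⟨w, hw⟩).symm
    · rw [Function.extend_apply' _ _ _ ?_]
      · exact hv w hw
      · rintro ⟨x, hx⟩
        apply hw
        have : x.1 = w := hx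
        rw [← this]
        exact x.2
  rw [h1, place_row hL v0 ℓ Y hℓ u (fun x => x.1.1) (fun x => x.1.2) ι hinj0 (hιinj _)
    (fun x => hR _ x.2) hι.2]
  exact hcore _

end T1

end Vale.Agent.H17.Foulkes
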