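import Vale.Agent.H17.FoulkesDM

/-!
# The vanishing theorem with one more exceptional slot (helper file for P181)
-/

namespace Vale.Agent.H17.Foulkes

open Finset Classical

section core
variable {R A : Type} [Fintype R] [Fintype A]

theorem core_plus (τ : (R → A) → ℂ)
    (hinv : ∀ (π : Equiv.Perm A) φ, τ (fun x => π (φ x)) = τ φ)
    (h : ∀ χ : R → A × ℂ, ¬ Function.Injective χ → ∑ φ : R → A,
      (if (∀ x y, χ x = χ y → φ x = φ y → x = y) then τ φ else 0) = 0)
    (hconst : ∀ φ : R → A, (∀ x y, φ x = φ y) → τ φ = 0) :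
    ∀ φ, τ φ = 0 := by
  intro φ1
  rcases isEmpty_or_nonempty R with hR | ⟨⟨x0⟩⟩
  · exact hconst φ1 (fun x => hR.elim x)
  set s : ℂ := ∑ φ : R → A, τ φ with hs
  have hall : ∀ χ : R → A × ℂ, ∑ φ : R → A,
      (if (∀ x y, χ x = χ y → φ x = φ y → x = y) then τ φ else 0) =
      if Function.Injective χ then s else 0 := by
    intro χ
    by_cases hχ : Function.Injective χ
    · rw [if_pos hχ, hs]
      refine Finset.sum_congr rfl fun φ _ => ?_
      rw [if_pos]
      intro x y hxy _
      exact hχ hxy
    · rw [if_neg hχ]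
      exact h χ hχ
  have hs0 : s = 0 := by
    let π : R → A := fun _ => φ1 x0
    have h1 : ∑ φ : R → A, wt π φ * τ φ = wt0 π * s := by
      unfold wt wt0
      simp only [Finset.sum_mul]
      rw [Finset.sum_comm]
      refine Finset.sum_congr rfl fun ω _ => ?_
      have := hall (fun x => (π x, ω x))
      have h2 : ∀ φ : R → A, (∏ x, ω x) *
          (if (∀ x y, π x = π y → ω x = ω y → φ x = φ y → x = y) then (1 : ℂ) else 0) * τ φ =
          (∏ x, ω x) * (if (∀ x y, (π x, ω x) = (π y, ω y) → φ x = φ y → x = y)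
            then τ φ else 0) := by
        intro φ
        have h3 : (∀ x y, π x = π y → ω x = ω y → φ x = φ y → x = y) ↔
            (∀ x y, (π x, ω x) = (π y, ω y) → φ x = φ y → x = y) := by
          constructor
          · intro H x y hxy
            rw [Prod.mk.injEq] at hxy
            exact H x y hxy.1 hxy.2
          · intro H x y h1 h2
            exact H x y (by rw [h1, h2])
        rw [if_congr h3 rfl rfl]
        split_ifs <;> ring
      simp only [h2]
      rw [← Finset.mul_sum, this]
      have h4 : Function.Injective (fun x => (π x, ω x)) ↔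
          ∀ x y, π x = π y → ω x = ω y → x = y := by
        constructor
        · intro H x y h1 h2
          exact H (Prod.ext h1 h2)
        · intro H x y hxy
          exact H x y (Prod.mk.injEq _ _ _ _ ▸ hxy).1 (Prod.mk.injEq _ _ _ _ ▸ hxy).2
      rw [if_congr h4 rfl rfl]
      split_ifs <;> ring
    have h2 : ∀ φ : R → A, wt π φ * τ φ = 0 := by
      intro φ
      by_cases hφ : ∀ x y, π x = π y → φ x = φ y
      · rw [hconst φ (fun x y => hφ x y rfl), mul_zero]
      · push Not at hφ
        obtain ⟨x0, y0, h3, h4⟩ := hφ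
        rw [wt_eq_zero π φ h3 h4, zero_mul]
    rw [Finset.sum_eq_zero (fun φ _ => h2 φ)] at h1
    exact (mul_eq_zero.mp h1.symm).resolve_left (wt0_ne_zero π)
  refine core τ hinv (fun χ => ?_) φ1
  rw [hall χ, hs0]
  simp

end core

section T1
variable {a b : ℕ} {E : Type} {L : (Fin a × Fin b → E) → ℂ}

/-- **Vanishing theorem**, with `|R| ≤ |Y| + 1`. -/
theorem vanish_plus (hL : Good L) (v0 : Fin b → E) (ℓ : E) (Y : Finset (Fin b))
    (hℓ : ∀ j ∈ Y, v0 j = ℓ) (R : Finset (Fin a × Fin b)) (hR : ∀ z ∈ R, z.2 ∈ Y)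
    (hcard : R.card ≤ Y.card + 1) (v : Fin a × Fin b → E) (hv : ∀ z ∉ R, v z = v0 z.2) :
    L v = 0 := by
  by_cases hle : R.card ≤ Y.card
  · exact vanish hL v0 ℓ Y hℓ R hR hle v hv
  have hgt : Y.card < R.card := by omega
  set u : {z // z ∈ R} → E := fun x => v x.1 with hu
  set Pl : ({z // z ∈ R} → Fin a) → Prop := fun φ => ∃ ψ : {z // z ∈ R} → Fin b,
    (∀ x, ψ x ∈ Y) ∧ Function.Injective (fun x => (φ x, ψ x)) with hPl
  set τ : ({z // z ∈ R} → Fin a) → ℂ := fun φ =>
    if h : Pl φ then L (place v0 u (fun x => (φ x, h.choose x))) else 0 with hτ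
  have hval : ∀ (φ : {z // z ∈ R} → Fin a) (ψ : {z // z ∈ R} → Fin b), (∀ x, ψ x ∈ Y) →
      Function.Injective (fun x => (φ x, ψ x)) → τ φ = L (place v0 u (fun x => (φ x, ψ x))) := by
    intro φ ψ h1 h2
    have hP : Pl φ := ⟨ψ, h1, h2⟩
    rw [hτ]
    simp only [hP, dif_pos]
    exact place_row hL v0 ℓ Y hℓ u φ _ ψ hP.choose_spec.2 h2 hP.choose_spec.1 h1
  have hcore : ∀ φ, τ φ = 0 := by
    refine core_plus τ ?_ ?_ ?_
    · intro π φ
      by_cases hP : Pl φ
      · obtain ⟨ψ, h1, h2⟩ := hP
        have h3 : Function.Injective (fun x => (π (φ x), ψ x)) := by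
          intro x y hxy
          simp only [Prod.mk.injEq, EmbeddingLike.apply_eq_iff_eq] at hxy
          exact h2 (Prod.ext hxy.1 hxy.2)
        rw [hval φ ψ h1 h2, hval _ ψ h1 h3]
        exact place_rows hL v0 u φ ψ h2 π
      · have hP' : ¬ Pl (fun x => π (φ x)) := by
          rintro ⟨ψ, h1, h2⟩
          apply hP
          refine ⟨ψ, h1, ?_⟩
          intro x y hxy
          simp only [Prod.mk.injEq] at hxy
          apply h2
          simp only [Prod.mk.injEq]
          exact ⟨by rw [hxy.1], hxy.2⟩
        rw [hτ]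
        simp only [hP, hP', dif_neg, not_false_eq_true]
    · intro χ hχ
      -- realise χ by ψ
      obtain ⟨ψ, hψY, hψ⟩ : ∃ ψ : {z // z ∈ R} → Fin b, (∀ x, ψ x ∈ Y) ∧
          ∀ x y, χ x = χ y ↔ ψ x = ψ y := by
        have hlt : (univ.image χ).card < (univ : Finset {z // z ∈ R}).card := by
          refine lt_of_le_of_ne Finset.card_image_le fun h => hχ ?_
          intro x y hxy
          exact Finset.card_image_iff.mp h (by simp) (by simp) hxy
        obtain ⟨Im, hIm⟩ : ∃ Im : Finset (Fin a × ℂ), Im = univ.image χ := ⟨_, rfl⟩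
        have hmem : ∀ x, χ x ∈ Im := fun x => by
          rw [hIm]
          exact mem_image_of_mem χ (mem_univ x)
        rw [← hIm, card_univ, Fintype.card_coe] at hlt
        have hle' : Fintype.card {c // c ∈ Im} ≤ Fintype.card {y // y ∈ Y} := by
          rw [Fintype.card_coe, Fintype.card_coe]
          omega
        obtain ⟨f⟩ := Function.Embedding.nonempty_of_card_le hle'
        refine ⟨fun x => (f ⟨χ x, hmem x⟩).1, fun x => (f _).2, ?_⟩
        intro x y
        constructor
        · intro h
          have h5 : (⟨χ x, hmem x⟩ : {c // c ∈ Im}) = ⟨χ y, hmem y⟩ := Subtype.ext h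
          exact congrArg (fun c => ((f c : {y // y ∈ Y}) : Fin b)) h5
        · intro h
          have := f.injective (Subtype.ext h)
          exact Subtype.ext_iff.mp this
      refine Eq.trans ?_ (place_col hL v0 u ψ)
      refine Finset.sum_congr rfl fun φ _ => ?_
      have hiff : (∀ x y, χ x = χ y → φ x = φ y → x = y) ↔
          Function.Injective (fun x => (φ x, ψ x)) := by
        constructor
        · intro h x y hxy
          simp only [Prod.mk.injEq] at hxy
          exact h x y ((hψ x y).mpr hxy.2) hxy.1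
        · intro h x y h1 h2
          exact h (Prod.ext h2 ((hψ x y).mp h1))
      by_cases hc : Function.Injective (fun x => (φ x, ψ x))
      · rw [if_pos (hiff.mpr hc), if_pos hc]
        exact hval φ ψ hψY hc
      · rw [if_neg (fun h => hc (hiff.mp h)), if_neg hc]
    · intro φ hφ
      have hP : ¬ Pl φ := by
        rintro ⟨ψ, h1, h2⟩
        have hinj : Function.Injective (fun x : {z // z ∈ R} => (⟨ψ x, h1 x⟩ : {y // y ∈ Y})) := by
          intro x y hxy
          exact h2 (Prod.ext (hφ x y) (Subtype.ext_iff.mp hxy))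
        have := Fintype.card_le_of_injective _ hinj
        rw [Fintype.card_coe, Fintype.card_coe] at this
        omega
      rw [hτ]
      simp only [hP, dif_neg, not_false_eq_true]
  have hinj0 : Function.Injective (fun x : {z // z ∈ R} => (x.1.1, x.1.2)) := by
    intro x y hxy
    exact Subtype.ext hxy
  have h1 : v = place v0 u (fun x : {z // z ∈ R} => (x.1.1, x.1.2)) := by
    funext w
    unfold place
    by_cases hw : w ∈ R
    · exact (hinj0.extend_apply u (fun w => v0 w.2) ⟨w, hw⟩).symm
    · rw [Function.extend_apply' _ _ _ ?_]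
      · exact hv w hw
      · rintro ⟨x, hx⟩
        apply hw
        have : x.1 = w := hx
        rw [← this]
        exact x.2
  rw [h1, ← hval (fun x => x.1.1) (fun x => x.1.2) (fun x => hR _ x.2) hinj0]
  exact hcore _

end T1

end Vale.Agent.H17.Foulkes
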