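import Vale.Agent.H17.FoulkesProp

/-!
# Weights with at most `b + 1` other letters (helper file for P181)
-/

namespace Vale.Agent.H17.Foulkes

open Finset Classical

theorem inj_weight_plus {a b n : ℕ} (T : Tens (Fin a × Fin b) n) (hT : T ∈ SymSym a b n)
    (s0 : Fin n) (hs : ∀ N, T N ≠ 0 → (univ.filter fun z => N z ≠ s0).card ≤ b + 1)
    (hΨ : Psi a b n T = 0) : T = 0 := by
  funext N0
  by_contra hne
  have h := hs N0 hne
  apply hne
  rw [← Lf_single T N0]
  refine vanish_plus (Lf_good T hT hΨ) (fun _ => Pi.single s0 1) (Pi.single s0 1) univ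
    (fun _ _ => rfl) (univ.filter fun z => N0 z ≠ s0) (fun _ _ => mem_univ _) ?_ _ ?_
  · rw [card_univ, Fintype.card_fin]
    exact h
  · intro z hz
    have : N0 z = s0 := by
      by_contra hc
      exact hz (mem_filter.mpr ⟨mem_univ _, hc⟩)
    rw [this]

theorem mult_le_of_first_plus {a b n : ℕ} (lam : Fin n → ℕ) (s : Fin n)
    (hs : a * b ≤ lam s + b + 1) : mult a b n lam ≤ mult b a n lam := by
  rw [mult_eq, mult_eq]
  refine mult_le lam fun T hT hΨ => inj_weight_plus T hT.1 s (fun N hN => ?_) hΨ
  have h1 := HW_weight lam hT N hN s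
  have h2 := Finset.card_filter_add_card_filter_not (s := (univ : Finset (Fin a × Fin b)))
    (fun z => N z = s)
  rw [h1, card_univ, Fintype.card_prod, Fintype.card_fin, Fintype.card_fin] at h2
  have h3 : (univ.filter fun z => N z ≠ s).card = (univ.filter fun z => ¬ N z = s).card := rfl
  omega

end Vale.Agent.H17.Foulkes
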