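import Vale.Agent.H1.LT2.Defs

/-!
Row C of P371: constants.
-/

open MeasureTheory Matrix Set
open scoped ENNReal ComplexOrder

namespace Vale.LT2

open Vale.LT (trPow IsH1 IsPotential NegSystem LTconst Lone)

theorem bet_eq (α : ℝ) (h0 : 0 < α) :
    bet α = √Real.pi * Real.Gamma (α + 1) / Real.Gamma (α + 3 / 2) := by
  have h1 : ∫ y in (0 : ℝ)..1, (1 - (2 * y - 1) ^ 2) ^ α =
      (2 : ℝ)⁻¹ • ∫ t in (-1 : ℝ)..1, (1 - t ^ 2) ^ α := by
    have := intervalIntegral.integral_comp_mul_sub (a := 0) (b := 1) (c := (2 : ℝ))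
      (fun t : ℝ => (1 - t ^ 2) ^ α) (by norm_num) 1
    rw [this]
    norm_num
  have h2 : ∫ y in (0 : ℝ)..1, (1 - (2 * y - 1) ^ 2) ^ α =
      (4 : ℝ) ^ α * (Real.Gamma (α + 1) * Real.Gamma (α + 1) / Real.Gamma (α + 1 + (α + 1))) := by
    rw [intervalIntegral.integral_of_le zero_le_one, integral_Ioc_eq_integral_Ioo,
      ← Vale.LT.real_beta (α + 1) (α + 1) (by linarith) (by linarith), ← integral_const_mul]
    refine setIntegral_congr_fun measurableSet_Ioo (fun y hy => ?_)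
    have hy0 := hy.1
    have hy1 : 0 < 1 - y := by linarith [hy.2]
    rw [show 1 - (2 * y - 1) ^ 2 = 4 * (y * (1 - y)) by ring, Real.mul_rpow (by norm_num)
      (by positivity), Real.mul_rpow hy0.le hy1.le]
    rw [show α + 1 - 1 = α by ring]
  have h3 : bet α = 2 * ((4 : ℝ) ^ α *
      (Real.Gamma (α + 1) * Real.Gamma (α + 1) / Real.Gamma (α + 1 + (α + 1)))) := by
    rw [← h2, h1, smul_eq_mul]
    unfold bet
    ring
  have hdup := Real.Gamma_mul_Gamma_add_half (α + 1)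
  rw [h3]
  have g1 : 0 < Real.Gamma (α + 1) := Real.Gamma_pos_of_pos (by linarith)
  have g2 : 0 < Real.Gamma (α + 3 / 2) := Real.Gamma_pos_of_pos (by linarith)
  have g3 : 0 < Real.Gamma (α + 1 + (α + 1)) := Real.Gamma_pos_of_pos (by linarith)
  rw [show α + 1 + 1 / 2 = α + 3 / 2 by ring, show 2 * (α + 1) = α + 1 + (α + 1) by ring] at hdup
  have h4 : (2 : ℝ) ^ (1 - (α + 1 + (α + 1))) = ((4 : ℝ) ^ α)⁻¹ / 2 := by
    rw [show 1 - (α + 1 + (α + 1)) = -(2 * α) - 1 by ring, Real.rpow_sub (by norm_num),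
      Real.rpow_one, Real.rpow_neg (by norm_num), Real.rpow_mul (by norm_num)]
    norm_num
  rw [h4] at hdup
  have g4 : 0 < (4 : ℝ) ^ α := by positivity
  field_simp at hdup ⊢
  nlinarith

theorem bet_pos (α : ℝ) (h0 : 0 < α) : 0 < bet α := by
  rw [bet_eq α h0]
  have g1 : 0 < Real.Gamma (α + 1) := Real.Gamma_pos_of_pos (by linarith)
  have g2 : 0 < Real.Gamma (α + 3 / 2) := Real.Gamma_pos_of_pos (by linarith)
  have g3 : 0 < √Real.pi := Real.sqrt_pos.2 Real.pi_pos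
  positivity

theorem Lone_eq (γ : ℝ) (h1 : 1 / 2 < γ) (h2 : γ < 3 / 2) :
    Lone γ * bet (γ - 1 / 2)
      = (1 / (γ - 1 / 2)) * (1 + 1 / (γ - 1 / 2)) ^ (-(γ + 1 / 2)) := by
  rw [bet_eq _ (by linarith)]
  have hg : Real.Gamma (γ + 3 / 2) = (γ + 1 / 2) * Real.Gamma (γ + 1 / 2) := by
    rw [← Real.Gamma_add_one (by linarith)]
    congr 1
    ring
  have e1 : γ - 1 / 2 + 1 = γ + 1 / 2 := by ring
  have e2 : γ - 1 / 2 + 3 / 2 = γ + 1 := by ring
  have g1 : 0 < Real.Gamma (γ + 1 / 2) := Real.Gamma_pos_of_pos (by linarith)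
  have g2 : 0 < Real.Gamma (γ + 1) := Real.Gamma_pos_of_pos (by linarith)
  have g3 : 0 < √Real.pi := Real.sqrt_pos.2 Real.pi_pos
  have p1 : 0 < γ - 1 / 2 := by linarith
  have p2 : 0 < γ + 1 / 2 := by linarith
  have hr : (1 + 1 / (γ - 1 / 2)) ^ (-(γ + 1 / 2)) =
      ((γ - 1 / 2) / (γ + 1 / 2)) * ((γ - 1 / 2) / (γ + 1 / 2)) ^ (γ - 1 / 2) := by
    have : 1 + 1 / (γ - 1 / 2) = ((γ - 1 / 2) / (γ + 1 / 2))⁻¹ := by
      rw [inv_div, eq_div_iff p1.ne', add_mul, one_mul, one_div_mul_cancel p1.ne']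
      ring
    have p3 : 0 < (γ - 1 / 2) / (γ + 1 / 2) := by positivity
    rw [this, Real.inv_rpow p3.le, Real.rpow_neg p3.le, inv_inv,
      show γ + 1 / 2 = 1 + (γ - 1 / 2) by ring, Real.rpow_add (by rwa [show 1 + (γ - 1 / 2) = γ + 1 / 2 by ring]), Real.rpow_one]
  rw [hr, e1, e2]
  unfold Vale.LT.Lone Vale.LT.Lcl
  rw [hg]
  generalize ((γ - 1 / 2) / (γ + 1 / 2)) ^ (γ - 1 / 2) = P
  have e3 : 1 / (γ - 1 / 2) * ((γ - 1 / 2) / (γ + 1 / 2) * P) = P / (γ + 1 / 2) := by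
    rw [← mul_assoc, one_div_mul_eq_div, div_div_cancel_left' p1.ne']
    ring
  rw [e3]
  generalize γ + 1 / 2 = v at *
  field_simp

end Vale.LT2
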