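import Mathlib

/-! # Covers of uniform hypergraphs of small maximum degree (helper file for P045) -/

namespace Vale.Agent.H17.Ryser

open Finset

variable {V : Type} [DecidableEq V]

/-- the edges of `E` containing `v` -/
def star (E : Finset (Finset V)) (v : V) : Finset (Finset V) := E.filter fun e => v ∈ e

theorem mem_star {E : Finset (Finset V)} {v : V} {e : Finset V} : e ∈ star E v ↔ e ∈ E ∧ v ∈ e :=
  mem_filter

/-- `M` is a matching of `E` -/
def IsMatching (E M : Finset (Finset V)) : Prop :=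
  M ⊆ E ∧ ∀ e ∈ M, ∀ f ∈ M, e ≠ f → Disjoint e f

theorem size_bound {E : Finset (Finset V)} {r j ν : ℕ} (hr : ∀ e ∈ E, e.card = r) (_hr1 : 1 ≤ r)
    (hdeg : ∀ v, (star E v).card ≤ j) (hj : 1 ≤ j) (hν : ∀ M, IsMatching E M → M.card ≤ ν) :
    E.card ≤ (r * (j - 1) + 1) * ν := by
  classical
  obtain ⟨M, hM, hmax⟩ : ∃ M, IsMatching E M ∧ ∀ N, IsMatching E N → N.card ≤ M.card := by
    have h : (E.powerset.filter fun M => IsMatching E M).Nonempty :=
      ⟨∅, mem_filter.mpr ⟨mem_powerset.mpr (empty_subset _), empty_subset _, by simp⟩⟩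
    obtain ⟨M, hM, h1⟩ := Finset.exists_max_image _ Finset.card h
    exact ⟨M, (mem_filter.mp hM).2, fun N hN =>
      h1 N (mem_filter.mpr ⟨mem_powerset.mpr hN.1, hN⟩)⟩
  have hcov : E ⊆ M.biUnion fun m => insert m (m.biUnion fun v => (star E v).erase m) := by
    intro e he
    rw [mem_biUnion]
    by_cases heM : e ∈ M
    · exact ⟨e, heM, mem_insert_self _ _⟩
    by_contra hcon
    have hdis : ∀ m ∈ M, Disjoint e m := by
      intro m hm
      rw [disjoint_left]
      intro v hve hvm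
      apply hcon
      refine ⟨m, hm, mem_insert_of_mem (mem_biUnion.mpr ⟨v, hvm, mem_erase.mpr ⟨?_, ?_⟩⟩)⟩
      · rintro rfl
        exact heM hm
      · exact mem_star.mpr ⟨he, hve⟩
    have h1 : IsMatching E (insert e M) := by
      refine ⟨insert_subset he hM.1, ?_⟩
      intro a ha b hb hab
      rcases mem_insert.mp ha with ha' | ha' <;> rcases mem_insert.mp hb with hb' | hb'
      · exact absurd (ha'.trans hb'.symm) hab
      · rw [ha']
        exact hdis b hb'
      · rw [hb']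
        exact (hdis a ha').symm
      · exact hM.2 a ha' b hb' hab
    have h2 := hmax _ h1
    rw [card_insert_of_notMem heM] at h2
    omega
  have h1 : ∀ m ∈ M, (insert m (m.biUnion fun v => (star E v).erase m)).card ≤
      r * (j - 1) + 1 := by
    intro m hm
    refine (card_insert_le _ _).trans (Nat.add_le_add_right ?_ 1)
    have hmE := hM.1 hm
    rw [← hr m hmE]
    refine card_biUnion_le_card_mul _ _ _ fun v hv => ?_
    rw [card_erase_of_mem (mem_star.mpr ⟨hmE, hv⟩)]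
    have := hdeg v
    omega
  calc E.card ≤ _ := card_le_card hcov
    _ ≤ M.card * (r * (j - 1) + 1) := card_biUnion_le_card_mul _ _ _ h1
    _ ≤ ν * (r * (j - 1) + 1) := Nat.mul_le_mul_right _ (hν M hM)
    _ = _ := Nat.mul_comm _ _

/-- greedy step -/
theorem greedy (j : ℕ) (hj : 1 ≤ j) : ∀ (n : ℕ) (E : Finset (Finset V)), E.card = n →
    (∀ v, (star E v).card ≤ j) →
    ∃ (E' : Finset (Finset V)) (C : Finset V) (c : ℕ), E' ⊆ E ∧ (∀ v, (star E' v).card ≤ j - 1) ∧
      C.card ≤ c ∧ E.card = E'.card + j * c ∧ ∀ e ∈ E, e ∉ E' → ∃ v ∈ C, v ∈ e := by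
  intro n
  induction n using Nat.strong_induction_on with
  | _ n ih =>
    intro E hE hdeg
    by_cases h : ∃ v, (star E v).card = j
    · obtain ⟨v, hv⟩ := h
      have hsub : star E v ⊆ E := filter_subset _ _
      have hcard : (E \ star E v).card + j = E.card := by
        rw [← hv]
        exact card_sdiff_add_card_eq_card hsub
      obtain ⟨E', C, c, h1, h2, h5, h3, h4⟩ := ih (E \ star E v).card (by omega) (E \ star E v) rfl
        (by
        intro w
        refine le_trans (card_le_card ?_) (hdeg w)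
        intro e he
        rw [mem_star] at he ⊢
        exact ⟨(mem_sdiff.mp he.1).1, he.2⟩)
      refine ⟨E', insert v C, c + 1, h1.trans sdiff_subset, h2, ?_, ?_, ?_⟩
      · exact (card_insert_le _ _).trans (Nat.add_le_add_right h5 1)
      · rw [← hcard, h3]
        ring
      · intro e he heE'
        by_cases hev : v ∈ e
        · exact ⟨v, mem_insert_self _ _, hev⟩
        · have : e ∈ E \ star E v := mem_sdiff.mpr ⟨he, fun h => hev (mem_star.mp h).2⟩
          obtain ⟨w, hw, hwe⟩ := h4 e this heE'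
          exact ⟨w, mem_insert_of_mem hw, hwe⟩
    · refine ⟨E, ∅, 0, Subset.rfl, ?_, by simp, by simp, fun e he he' => absurd he he'⟩
      intro v
      have h1 := hdeg v
      have h2 : (star E v).card ≠ j := fun h' => h ⟨v, h'⟩
      omega

omit [DecidableEq V] in
theorem matching_mono {E E' : Finset (Finset V)} (h : E' ⊆ E) {ν : ℕ}
    (hν : ∀ M, IsMatching E M → M.card ≤ ν) : ∀ M, IsMatching E' M → M.card ≤ ν :=
  fun M hM => hν M ⟨hM.1.trans h, hM.2⟩

/-- maximum degree at most two -/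
theorem deg_two {E : Finset (Finset V)} {r ν : ℕ} (hr : ∀ e ∈ E, e.card = r) (hr1 : 1 ≤ r)
    (hdeg : ∀ v, (star E v).card ≤ 2) (hν : ∀ M, IsMatching E M → M.card ≤ ν) :
    ∃ C : Finset V, (∀ e ∈ E, ∃ v ∈ C, v ∈ e) ∧ 2 * C.card ≤ E.card + ν := by
  obtain ⟨E1, C2, c2, hE1, hd1, hc2, hn2, hcov2⟩ := greedy 2 (by norm_num) _ E rfl hdeg
  obtain ⟨E0, C1, c1, hE0, hd0, hc1, hn1, hcov1⟩ := greedy 1 (by norm_num) _ E1 rfl
    (fun v => (hd1 v).trans (by norm_num))
  have hE0' : E0 = ∅ := by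
    rw [eq_empty_iff_forall_notMem]
    intro e he
    have hcard := hr e (hE1 (hE0 he))
    obtain ⟨v, hv⟩ : e.Nonempty := card_pos.mp (by omega)
    have h1 := hd0 v
    have h2 : 0 < (star E0 v).card := card_pos.mpr ⟨e, mem_star.mpr ⟨he, hv⟩⟩
    omega
  have hM1 : E1.card ≤ ν := by
    have := size_bound (fun e he => hr e (hE1 he)) hr1 (fun v => (hd1 v).trans (by norm_num))
      (le_refl 1) (matching_mono hE1 hν)
    simpa using this
  refine ⟨C2 ∪ C1, ?_, ?_⟩
  · intro e he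
    by_cases h1 : e ∈ E1
    · obtain ⟨v, hv, hve⟩ := hcov1 e h1 (by simp [hE0'])
      exact ⟨v, mem_union_right _ hv, hve⟩
    · obtain ⟨v, hv, hve⟩ := hcov2 e he h1
      exact ⟨v, mem_union_left _ hv, hve⟩
  · have h3 := card_union_le C2 C1
    have h4 : E0.card = 0 := by rw [hE0']; rfl
    omega

/-- maximum degree at most three -/
theorem deg_three {E : Finset (Finset V)} {r ν : ℕ} (hr : ∀ e ∈ E, e.card = r) (hr1 : 1 ≤ r)
    (hdeg : ∀ v, (star E v).card ≤ 3) (hν : ∀ M, IsMatching E M → M.card ≤ ν) :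
    ∃ C : Finset V, (∀ e ∈ E, ∃ v ∈ C, v ∈ e) ∧ 6 * C.card ≤ (5 * r + 6) * ν := by
  obtain ⟨E2, C3, c3, hE2, hd2, hc3, hn3, hcov3⟩ := greedy 3 (by norm_num) _ E rfl hdeg
  obtain ⟨C, hcov, hC⟩ := deg_two (fun e he => hr e (hE2 he)) hr1 hd2 (matching_mono hE2 hν)
  have h3 := size_bound hr hr1 hdeg (by norm_num) hν
  have h2 := size_bound (fun e he => hr e (hE2 he)) hr1 (fun v => (hd2 v).trans (by norm_num))
    (by norm_num : 1 ≤ 2) (matching_mono hE2 hν)
  refine ⟨C3 ∪ C, ?_, ?_⟩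
  · intro e he
    by_cases h1 : e ∈ E2
    · obtain ⟨v, hv, hve⟩ := hcov e h1
      exact ⟨v, mem_union_right _ hv, hve⟩
    · obtain ⟨v, hv, hve⟩ := hcov3 e he h1
      exact ⟨v, mem_union_left _ hv, hve⟩
  · have h4 := card_union_le C3 C
    have h5 : E2.card ≤ r * ν + ν := by
      have : (r * (2 - 1) + 1) * ν = r * ν + ν := by ring
      omega
    have h6 : E.card ≤ 2 * (r * ν) + ν := by
      have : (r * (3 - 1) + 1) * ν = 2 * (r * ν) + ν := by norm_num; ring
      omega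
    have h7 : (5 * r + 6) * ν = 5 * (r * ν) + 6 * ν := by ring
    omega

/-- maximum degree at most four: cover in terms of the number of edges -/
theorem deg_four {E : Finset (Finset V)} {r ν : ℕ} (hr : ∀ e ∈ E, e.card = r) (hr1 : 1 ≤ r)
    (hdeg : ∀ v, (star E v).card ≤ 4) (hν : ∀ M, IsMatching E M → M.card ≤ ν) :
    ∃ C : Finset V, (∀ e ∈ E, ∃ v ∈ C, v ∈ e) ∧ 6 * C.card ≤ 2 * E.card + (r + 4) * ν := by
  obtain ⟨E3, C4, c4, hE3, hd3, hc4, hn4, hcov4⟩ := greedy 4 (by norm_num) _ E rfl hdeg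
  obtain ⟨E2, C3, c3, hE2, hd2, hc3, hn3, hcov3⟩ := greedy 3 (by norm_num) _ E3 rfl hd3
  have hE2' := hE2.trans hE3
  obtain ⟨C, hcov, hC⟩ := deg_two (fun e he => hr e (hE2' he)) hr1 hd2 (matching_mono hE2' hν)
  have h2 := size_bound (fun e he => hr e (hE2' he)) hr1 (fun v => (hd2 v).trans (by norm_num))
    (by norm_num : 1 ≤ 2) (matching_mono hE2' hν)
  refine ⟨C4 ∪ (C3 ∪ C), ?_, ?_⟩
  · intro e he
    by_cases h3 : e ∈ E3
    · by_cases h1 : e ∈ E2
      · obtain ⟨v, hv, hve⟩ := hcov e h1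
        exact ⟨v, mem_union_right _ (mem_union_right _ hv), hve⟩
      · obtain ⟨v, hv, hve⟩ := hcov3 e h3 h1
        exact ⟨v, mem_union_right _ (mem_union_left _ hv), hve⟩
    · obtain ⟨v, hv, hve⟩ := hcov4 e he h3
      exact ⟨v, mem_union_left _ hv, hve⟩
  · have h4 := card_union_le C4 (C3 ∪ C)
    have h4' := card_union_le C3 C
    have h5 : E2.card ≤ r * ν + ν := by
      have : (r * (2 - 1) + 1) * ν = r * ν + ν := by ring
      omega
    have h7 : (r + 4) * ν = r * ν + 4 * ν := by ring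
    omega

/-- number of edges of `S` meeting `e` -/
def D (S : Finset (Finset V)) (e : Finset V) : ℕ := (S.filter fun f => ¬ Disjoint f e).card

/-- Caro–Wei -/
theorem caro_wei : ∀ (n : ℕ) (S : Finset (Finset V)), S.card = n → (∀ e ∈ S, e.Nonempty) →
    ∀ ν : ℕ, (∀ M, IsMatching S M → M.card ≤ ν) → ∑ e ∈ S, (1 : ℝ) / D S e ≤ ν := by
  intro n
  induction n using Nat.strong_induction_on with
  | _ n ih =>
    intro S hS hne ν hν
    rcases S.eq_empty_or_nonempty with rfl | hSne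
    · simp
    obtain ⟨e, he, hmin⟩ := Finset.exists_min_image S (D S) hSne
    have hself : ∀ f ∈ S, ¬ Disjoint f f := fun f hf h => (hne f hf).ne_empty (by
      simpa using h)
    set S' := S.filter fun f => Disjoint f e with hS'
    have hsub : S' ⊆ S := filter_subset _ _
    have heS' : e ∉ S' := fun h => hself e he (mem_filter.mp h).2
    have hlt : S'.card < n := by
      rw [← hS]
      exact card_lt_card ⟨hsub, fun h => heS' (h he)⟩
    have hν' : ∀ M, IsMatching S' M → M.card + 1 ≤ ν := by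
      intro M hM
      have heM : e ∉ M := fun h => heS' (hM.1 h)
      have h1 : IsMatching S (insert e M) := by
        refine ⟨insert_subset he (hM.1.trans hsub), ?_⟩
        intro a ha b hb hab
        rcases mem_insert.mp ha with ha' | ha' <;> rcases mem_insert.mp hb with hb' | hb'
        · exact absurd (ha'.trans hb'.symm) hab
        · rw [ha']
          exact (mem_filter.mp (hM.1 hb')).2.symm
        · rw [hb']
          exact (mem_filter.mp (hM.1 ha')).2
        · exact hM.2 a ha' b hb' hab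
      have h2 := hν _ h1
      rwa [card_insert_of_notMem heM] at h2
    have hν1 : 1 ≤ ν := by
      have := hν' ∅ ⟨empty_subset _, by simp⟩
      simpa using this
    have ih' := ih _ hlt S' rfl (fun f hf => hne f (hsub hf)) (ν - 1) (fun M hM => by
      have := hν' M hM
      omega)
    have hDpos : ∀ f ∈ S, 0 < D S f := fun f hf =>
      card_pos.mpr ⟨f, mem_filter.mpr ⟨hf, hself f hf⟩⟩
    have h1 : ∑ f ∈ S', (1 : ℝ) / D S f ≤ ∑ f ∈ S', (1 : ℝ) / D S' f := by
      refine sum_le_sum fun f hf => ?_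
      have h2 : 0 < D S' f := card_pos.mpr ⟨f, mem_filter.mpr ⟨hf, hself f (hsub hf)⟩⟩
      have h3 : D S' f ≤ D S f := card_le_card (filter_subset_filter _ hsub)
      exact one_div_le_one_div_of_le (by exact_mod_cast h2) (by exact_mod_cast h3)
    have h2 : ∑ f ∈ S.filter (fun f => ¬ Disjoint f e), (1 : ℝ) / D S f ≤ 1 := by
      have h3 : ∀ f ∈ S.filter (fun f => ¬ Disjoint f e), (1 : ℝ) / D S f ≤ 1 / D S e := by
        intro f hf
        have hf' := (mem_filter.mp hf).1
        exact one_div_le_one_div_of_le (by exact_mod_cast hDpos e he)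
          (by exact_mod_cast hmin f hf')
      refine (sum_le_sum h3).trans ?_
      rw [sum_const, nsmul_eq_mul]
      have h4 : (0 : ℝ) < D S e := by exact_mod_cast hDpos e he
      have h5 : ((S.filter (fun f => ¬ Disjoint f e)).card : ℝ) = D S e := rfl
      rw [h5, mul_one_div_cancel h4.ne']
    have h3 : ∑ f ∈ S, (1 : ℝ) / D S f = ∑ f ∈ S', (1 : ℝ) / D S f +
        ∑ f ∈ S.filter (fun f => ¬ Disjoint f e), (1 : ℝ) / D S f := by
      rw [hS', sum_filter_add_sum_filter_not]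
    have h4 : ((ν - 1 : ℕ) : ℝ) = (ν : ℝ) - 1 := by
      rw [Nat.cast_sub hν1]
      simp
    rw [h3]
    rw [h4] at ih'
    linarith

/-- Turán type inequality -/
theorem turan {S : Finset (Finset V)} (hne : ∀ e ∈ S, e.Nonempty) {ν : ℕ}
    (hν : ∀ M, IsMatching S M → M.card ≤ ν) : S.card ^ 2 ≤ ν * ∑ e ∈ S, D S e := by
  have h1 := caro_wei _ S rfl hne ν hν
  have hDpos : ∀ f ∈ S, (0 : ℝ) < D S f := fun f hf => by
    have : 0 < D S f := card_pos.mpr ⟨f, mem_filter.mpr ⟨hf, fun h =>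
      (hne f hf).ne_empty (by simpa using h)⟩⟩
    exact_mod_cast this
  have h2 : (∑ e ∈ S, (1 : ℝ)) ^ 2 ≤ (∑ e ∈ S, (1 : ℝ) / D S e) * ∑ e ∈ S, (D S e : ℝ) :=
    Finset.sum_sq_le_sum_mul_sum_of_sq_le_mul S
      (fun e he => (one_div_pos.mpr (hDpos e he)).le) (fun e he => (hDpos e he).le)
      (fun e he => by
        have := (hDpos e he).ne'
        apply le_of_eq
        field_simp)
  have h3 : (∑ e ∈ S, (1 : ℝ)) = S.card := by simp
  rw [h3] at h2
  have h4 : ((S.card ^ 2 : ℕ) : ℝ) ≤ ((ν * ∑ e ∈ S, D S e : ℕ) : ℝ) := by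
    push_cast
    exact h2.trans (mul_le_mul_of_nonneg_right h1 (sum_nonneg fun e he => (hDpos e he).le))
  exact_mod_cast h4

/-- nonisolated vertices -/
def U (S : Finset (Finset V)) : Finset V := S.biUnion id

theorem D_le {S : Finset (Finset V)} {e : Finset V} (he : e ∈ S) :
    D S e ≤ 1 + ∑ v ∈ e, ((star S v).card - 1) := by
  have hsub : (S.filter fun f => ¬ Disjoint f e) ⊆
      insert e (e.biUnion fun v => (star S v).erase e) := by
    intro f hf
    obtain ⟨hfS, hf⟩ := mem_filter.mp hf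
    by_cases hfe : f = e
    · rw [hfe]
      exact mem_insert_self _ _
    · obtain ⟨v, hv, hv'⟩ := Finset.not_disjoint_iff.mp hf
      exact mem_insert_of_mem (mem_biUnion.mpr ⟨v, hv', mem_erase.mpr
        ⟨hfe, mem_star.mpr ⟨hfS, hv⟩⟩⟩)
  refine (card_le_card hsub).trans ((card_insert_le _ _).trans ?_)
  rw [add_comm]
  refine Nat.add_le_add_left (card_biUnion_le.trans (sum_le_sum fun v hv => ?_)) 1
  rw [card_erase_of_mem (mem_star.mpr ⟨he, hv⟩)]

theorem sum_D {S : Finset (Finset V)} {r k : ℕ} (hr : ∀ e ∈ S, e.card = r)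
    (hdeg : ∀ v, (star S v).card ≤ k) :
    ∑ e ∈ S, D S e + k * (U S).card ≤ S.card + k * (r * S.card) := by
  have h1 : ∑ e ∈ S, D S e ≤ S.card + ∑ e ∈ S, ∑ v ∈ e, ((star S v).card - 1) := by
    refine (sum_le_sum fun e he => D_le he).trans ?_
    rw [sum_add_distrib]
    simp
  have h2 : ∑ e ∈ S, ∑ v ∈ e, ((star S v).card - 1) =
      ∑ v ∈ U S, (star S v).card * ((star S v).card - 1) := by
    rw [Finset.sum_comm' (t' := U S) (s' := fun v => star S v)]
    · refine sum_congr rfl fun v _ => ?_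
      rw [sum_const, smul_eq_mul]
    · intro e v
      constructor
      · rintro ⟨h, h'⟩
        exact ⟨mem_star.mpr ⟨h, h'⟩, mem_biUnion.mpr ⟨e, h, h'⟩⟩
      · rintro ⟨h, _⟩
        exact mem_star.mp h
  have h3 : ∑ v ∈ U S, (star S v).card = r * S.card := by
    have : ∑ e ∈ S, ∑ _v ∈ e, 1 = ∑ v ∈ U S, ∑ _e ∈ star S v, 1 := by
      rw [Finset.sum_comm' (t' := U S) (s' := fun v => star S v)]
      intro e v
      constructor
      · rintro ⟨h, h'⟩
        exact ⟨mem_star.mpr ⟨h, h'⟩, mem_biUnion.mpr ⟨e, h, h'⟩⟩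
      · rintro ⟨h, _⟩
        exact mem_star.mp h
    simp only [sum_const, smul_eq_mul, mul_one] at this
    rw [← this, sum_congr rfl hr, sum_const, smul_eq_mul, mul_comm]
  have h4 : ∑ v ∈ U S, (star S v).card * ((star S v).card - 1) + k * (U S).card ≤
      k * (r * S.card) := by
    rw [← h3, mul_sum]
    have : k * (U S).card = ∑ v ∈ U S, k := by rw [sum_const, smul_eq_mul, mul_comm]
    rw [this, ← sum_add_distrib]
    refine sum_le_sum fun v hv => ?_
    have h5 : 1 ≤ (star S v).card := by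
      obtain ⟨e, he, hve⟩ := mem_biUnion.mp hv
      exact card_pos.mpr ⟨e, mem_star.mpr ⟨he, hve⟩⟩
    obtain ⟨d, hd⟩ : ∃ d, (star S v).card = d + 1 := ⟨(star S v).card - 1, by omega⟩
    have h6 := hdeg v
    rw [hd] at h6 ⊢
    have h7 : (d + 1) * d ≤ k * d := Nat.mul_le_mul_right _ h6
    have h8 : k * (d + 1) = k * d + k := by ring
    rw [h8, Nat.add_sub_cancel]
    omega
  rw [h2] at h1
  omega

/-- one part of the partition is a cover -/
theorem part_cover {S : Finset (Finset V)} {r : ℕ} (hr1 : 1 ≤ r) (part : V → Fin r)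
    (hS : ∀ e ∈ S, ∀ i, ∃! v, v ∈ e ∧ part v = i) :
    ∃ C : Finset V, (∀ e ∈ S, ∃ v ∈ C, v ∈ e) ∧ r * C.card ≤ (U S).card := by
  have h1 : (U S).card = ∑ i : Fin r, ((U S).filter fun v => part v = i).card :=
    card_eq_sum_card_fiberwise (fun v _ => mem_univ (part v))
  have h2 : ∃ i : Fin r, r * ((U S).filter fun v => part v = i).card ≤ (U S).card := by
    by_contra hcon
    push Not at hcon
    have h3 : ∑ _i : Fin r, ((U S).card + 1) ≤
        ∑ i : Fin r, r * ((U S).filter fun v => part v = i).card :=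
      sum_le_sum fun i _ => hcon i
    rw [← mul_sum, ← h1, sum_const, card_univ, Fintype.card_fin, smul_eq_mul] at h3
    have := Nat.le_of_mul_le_mul_left h3 hr1
    omega
  obtain ⟨i, hi⟩ := h2
  refine ⟨_, fun e he => ?_, hi⟩
  obtain ⟨v, ⟨hv, hvi⟩, -⟩ := hS e he i
  exact ⟨v, mem_filter.mpr ⟨mem_biUnion.mpr ⟨e, he, hv⟩, hvi⟩, hv⟩

omit [DecidableEq V] in
theorem card_edge {e : Finset V} {r : ℕ} (part : V → Fin r)
    (he : ∀ i, ∃! v, v ∈ e ∧ part v = i) : e.card = r := by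
  have h1 : e.card = (univ : Finset (Fin r)).card := by
    refine card_bij (fun v _ => part v) (fun _ _ => mem_univ _) ?_ ?_
    · intro a ha b hb hab
      exact (he (part b)).unique ⟨ha, hab⟩ ⟨hb, rfl⟩
    · intro i _
      obtain ⟨v, ⟨hv, hvi⟩, -⟩ := he i
      exact ⟨v, hv, hvi⟩
  simpa using h1

theorem key {S : Finset (Finset V)} {r ν k : ℕ} (part : V → Fin r) (hr1 : 1 ≤ r)
    (hS : ∀ e ∈ S, ∀ i, ∃! v, v ∈ e ∧ part v = i)
    (hdeg : ∀ v, (star S v).card ≤ k) (hν : ∀ M, IsMatching S M → M.card ≤ ν) :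
    (∃ C : Finset V, (∀ e ∈ S, ∃ v ∈ C, v ∈ e) ∧ C.card ≤ (r - 1) * ν) ∨
      (0 < ν ∧ S.card ^ 2 + k * r * (r - 1) * ν ^ 2 ≤ (k * r + 1) * S.card * ν) := by
  have hcard : ∀ e ∈ S, e.card = r := fun e he => card_edge part (hS e he)
  have hne : ∀ e ∈ S, e.Nonempty := fun e he => card_pos.mp (by rw [hcard e he]; exact hr1)
  obtain ⟨C, hC, hCU⟩ := part_cover hr1 part hS
  by_cases hu : (U S).card ≤ r * ((r - 1) * ν)
  · left
    exact ⟨C, hC, Nat.le_of_mul_le_mul_left (hCU.trans hu) hr1⟩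
  · right
    push Not at hu
    have h1 := turan hne hν
    have h2 := sum_D hcard hdeg
    refine ⟨?_, ?_⟩
    · rcases Nat.eq_zero_or_pos ν with h0 | h0
      · exfalso
        subst h0
        have h3 : S.card = 0 := by
          have : S.card ^ 2 = 0 := by simpa using h1
          exact pow_eq_zero_iff (by norm_num) |>.mp this
        have h4 : S = ∅ := card_eq_zero.mp h3
        rw [h4] at hu
        simp [U] at hu
      · exact h0
    · have h3 : k * r * (r - 1) * ν ^ 2 ≤ ν * (k * (U S).card) := by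
        calc k * r * (r - 1) * ν ^ 2 = ν * (k * (r * ((r - 1) * ν))) := by ring
          _ ≤ _ := Nat.mul_le_mul_left _ (Nat.mul_le_mul_left _ hu.le)
      calc S.card ^ 2 + k * r * (r - 1) * ν ^ 2
          ≤ ν * (∑ e ∈ S, D S e) + ν * (k * (U S).card) := Nat.add_le_add h1 h3
        _ = ν * (∑ e ∈ S, D S e + k * (U S).card) := by ring
        _ ≤ ν * (S.card + k * (r * S.card)) := Nat.mul_le_mul_left _ h2
        _ = _ := by ring

theorem main {S : Finset (Finset V)} {r ν k : ℕ} (part : V → Fin r)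
    (hS : ∀ e ∈ S, ∀ i, ∃! v, v ∈ e ∧ part v = i)
    (hdeg : ∀ v, (star S v).card ≤ k) (hν : ∀ M, IsMatching S M → M.card ≤ ν)
    (hk : (k ≤ 2 ∧ 4 ≤ r) ∨ (k ≤ 3 ∧ 7 ≤ r) ∨ (k ≤ 4 ∧ 44 ≤ r)) :
    ∃ C : Finset V, (∀ e ∈ S, ∃ v ∈ C, v ∈ e) ∧ C.card ≤ (r - 1) * ν := by
  obtain ⟨t, rfl⟩ : ∃ t, r = t + 1 := ⟨r - 1, by omega⟩
  rcases hk with ⟨hk, hr⟩ | ⟨hk, hr⟩ | ⟨hk, hr⟩
  · rcases key part (by omega) hS (fun v => (hdeg v).trans hk) hν with h | ⟨h0, h⟩
    · exact h
    · exfalso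
      rw [Nat.add_sub_cancel] at h
      have ht : (3 : ℤ) ≤ t := by omega
      have h' : (S.card : ℤ) ^ 2 + 2 * (t + 1) * t * ν ^ 2 ≤ (2 * (t + 1) + 1) * S.card * ν := by
        exact_mod_cast h
      have hν0 : (0 : ℤ) < (ν : ℤ) ^ 2 := by positivity
      have h2 : (0 : ℤ) < 4 * t ^ 2 - 4 * t - 9 := by nlinarith
      nlinarith [sq_nonneg (2 * (S.card : ℤ) - (2 * t + 3) * ν), mul_pos h2 hν0]
  · rcases key part (by omega) hS (fun v => (hdeg v).trans hk) hν with h | ⟨h0, h⟩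
    · exact h
    · exfalso
      rw [Nat.add_sub_cancel] at h
      have ht : (6 : ℤ) ≤ t := by omega
      have h' : (S.card : ℤ) ^ 2 + 3 * (t + 1) * t * ν ^ 2 ≤ (3 * (t + 1) + 1) * S.card * ν := by
        exact_mod_cast h
      have hν0 : (0 : ℤ) < (ν : ℤ) ^ 2 := by positivity
      have h2 : (0 : ℤ) < 3 * t ^ 2 - 12 * t - 16 := by nlinarith
      nlinarith [sq_nonneg (2 * (S.card : ℤ) - (3 * t + 4) * ν), mul_pos h2 hν0]
  · have hdeg4 : ∀ v, (star S v).card ≤ 4 := fun v => (hdeg v).trans hk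
    rcases key part (by omega) hS hdeg4 hν with h | ⟨h0, h⟩
    · exact h
    · obtain ⟨C, hC, hC6⟩ := deg_four (fun e he => card_edge part (hS e he)) (by omega) hdeg4 hν
      refine ⟨C, hC, ?_⟩
      rw [Nat.add_sub_cancel] at h ⊢
      have ht : (43 : ℤ) ≤ t := by omega
      have h' : (S.card : ℤ) ^ 2 + 4 * (t + 1) * t * ν ^ 2 ≤ (4 * (t + 1) + 1) * S.card * ν := by
        exact_mod_cast h
      have hC6' : 6 * (C.card : ℤ) ≤ 2 * S.card + (t + 1 + 4) * ν := by exact_mod_cast hC6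
      have hν0 : (0 : ℤ) < (ν : ℤ) := by exact_mod_cast h0
      have hgoal : (C.card : ℤ) ≤ t * ν := by
        by_contra hcon
        push Not at hcon
        have ha : 0 < 2 * (S.card : ℤ) - (5 * t - 5) * ν := by nlinarith
        have h2 : (0 : ℤ) ≤ t ^ 2 - 44 * t + 75 := by nlinarith
        nlinarith [sq_nonneg (2 * (S.card : ℤ) - (5 * t - 5) * ν), mul_pos ha hν0,
          mul_nonneg h2 (sq_nonneg (ν : ℤ)), mul_pos (mul_pos ha hν0) (by linarith : (0 : ℤ) < t - 10)]
      exact_mod_cast hgoal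

end Vale.Agent.H17.Ryser
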